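import Vale.Agent.P091.H253.T0
import Vale.Agent.P091.CH.H69.HL

/-!
# P091 : from the finite grids `ZMod (2^K)` to the circle

`PGRID` is the one-height inequality (A) on the grids `X K = ZMod (2^K)`.  The row: `PGRID`
implies `PAw T` for every `T > 0`, hence almost everywhere convergence on `L log L`.
-/

open MeasureTheory AddCircle Set Filter Topology
open scoped ENNReal NNReal

namespace Vale.Agent.P091.H253

/-! ## sampling points -/

section sampling

variable {T : ℝ} [hT : Fact (0 < T)]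

/-- the sampling points of the circle -/
noncomputable def tau (T : ℝ) [hT : Fact (0 < T)] (n : ℕ) [NeZero n] : ZMod n →+ AddCircle T :=
  (AddCircle.equivAddCircle 1 T one_ne_zero hT.out.ne').toAddMonoidHom.comp ZMod.toAddCircle

omit hT in
theorem fourier_point_add (m : ℤ) (x y : AddCircle T) :
    (fourier m (x + y) : ℂ) = fourier m x * fourier m y := by
  simp only [fourier_apply]
  rw [smul_add, toCircle_add, Circle.coe_mul]

theorem fourier_tau (n : ℕ) [NeZero n] (k : ℤ) (j : ZMod n) :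
    (fourier k (tau T n j) : ℂ) = ZMod.stdAddChar ((k : ZMod n) * j) := by
  obtain ⟨m, rfl⟩ := ZMod.intCast_surjective j
  have h1 : tau T n (m : ZMod n) = (((m : ℝ) / n * (1⁻¹ * T) : ℝ) : AddCircle T) := by
    show AddCircle.equivAddCircle 1 T one_ne_zero hT.out.ne' (ZMod.toAddCircle (m : ZMod n)) = _
    rw [ZMod.toAddCircle_intCast]
    exact equivAddCircle_apply_mk _ _ _ _ _
  rw [h1, fourier_coe_apply, ← Int.cast_mul, ZMod.stdAddChar_coe]
  congr 1
  have hT' : (T : ℂ) ≠ 0 := by exact_mod_cast hT.out.ne'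
  push_cast
  field_simp

/-- the average of `h` over the translates of the sampling points -/
noncomputable def HH (n : ℕ) [NeZero n] (h : AddCircle T → ℂ) (x : AddCircle T) : ℂ :=
  (∑ j : ZMod n, h (x + tau T n j)) / n

theorem integral_fourier (m : ℤ) :
    ∫ x, (fourier m x : ℂ) ∂(haarAddCircle (T := T)) = if m = 0 then 1 else 0 := by
  have h := congrFun (fourierCoeff_fourier (T := T) m) 0
  unfold fourierCoeff at h
  simp only [neg_zero, fourier_zero, one_smul] at h
  rw [h]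
  rcases eq_or_ne m 0 with rfl | h0
  · simp
  · rw [if_neg h0, Pi.single_eq_of_ne (Ne.symm h0)]

theorem HH_exact {p : C(AddCircle T, ℂ)} (hp : p ∈ Submodule.span ℂ (range (@fourier T))) :
    ∃ n0 : ℕ, ∀ (n : ℕ) [NeZero n], n0 ≤ n → ∀ x, HH n p x = ∫ y, p y ∂haarAddCircle := by
  induction hp using Submodule.span_induction with
  | mem p hp =>
    obtain ⟨m, rfl⟩ := hp
    refine ⟨m.natAbs + 1, fun n _ hn x => ?_⟩
    have hn0 : (n : ℂ) ≠ 0 := by exact_mod_cast NeZero.ne n
    rw [integral_fourier]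
    unfold HH
    have h1 : ∀ j : ZMod n, (fourier m (x + tau T n j) : ℂ) =
        fourier m x * ZMod.stdAddChar (j * (m : ZMod n)) := fun j => by
      rw [fourier_point_add, fourier_tau, mul_comm j]
    simp_rw [h1]
    rw [← Finset.mul_sum, AddChar.sum_mulShift _ (ZMod.isPrimitive_stdAddChar n)]
    rcases eq_or_ne m 0 with rfl | h0
    · simp [hn0]
    · rw [if_neg h0, if_neg]
      · simp
      · rw [ZMod.intCast_zmod_eq_zero_iff_dvd]
        intro hd
        have := Int.natAbs_dvd_natAbs.2 hd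
        have := Nat.le_of_dvd (Int.natAbs_pos.2 h0) this
        simp at this
        omega
  | zero => exact ⟨0, fun n _ _ x => by simp [HH]⟩
  | add p q _ _ hp hq =>
    obtain ⟨n1, h1⟩ := hp
    obtain ⟨n2, h2⟩ := hq
    refine ⟨max n1 n2, fun n _ hn x => ?_⟩
    have e1 := h1 n (le_trans (le_max_left _ _) hn) x
    have e2 := h2 n (le_trans (le_max_right _ _) hn) x
    have e3 : ∫ y, (p + q) y ∂haarAddCircle = ∫ y, p y ∂haarAddCircle + ∫ y, q y ∂haarAddCircle :=
      integral_add (cont_int p) (cont_int q)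
    rw [e3, ← e1, ← e2]
    unfold HH
    rw [← add_div, ← Finset.sum_add_distrib]; rfl
  | smul c p _ hp =>
    obtain ⟨n1, h1⟩ := hp
    refine ⟨n1, fun n _ hn x => ?_⟩
    have e1 := h1 n hn x
    have e3 : ∫ y, (c • p) y ∂haarAddCircle = c * ∫ y, p y ∂haarAddCircle :=
      integral_const_mul c _
    rw [e3, ← e1]
    unfold HH
    rw [mul_div_assoc', Finset.mul_sum]; rfl

theorem HH_close (h : C(AddCircle T, ℂ)) {ε : ℝ} (hε : 0 < ε) :
    ∃ n0 : ℕ, ∀ (n : ℕ) [NeZero n], n0 ≤ n → ∀ x,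
      ‖HH n h x - ∫ y, h y ∂haarAddCircle‖ ≤ ε := by
  have hc : h ∈ closure ((Submodule.span ℂ (range (@fourier T)) : Submodule ℂ C(AddCircle T, ℂ)) :
      Set C(AddCircle T, ℂ)) := by
    rw [← Submodule.topologicalClosure_coe, span_fourier_closure_eq_top]; trivial
  obtain ⟨p, hp, hd⟩ := Metric.mem_closure_iff.1 hc (ε / 2) (half_pos hε)
  rw [dist_eq_norm] at hd
  have hpt : ∀ y, ‖h y - p y‖ ≤ ε / 2 := fun y => ((h - p).norm_coe_le_norm y).trans hd.le
  obtain ⟨n0, hn⟩ := HH_exact hp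
  refine ⟨n0, fun n _ hn0 x => ?_⟩
  have h1 := hn n hn0 x
  have hnp : (0:ℝ) < n := by exact_mod_cast NeZero.pos n
  have h2 : ‖HH n h x - HH n p x‖ ≤ ε / 2 := by
    unfold HH
    rw [← sub_div, ← Finset.sum_sub_distrib, norm_div, Complex.norm_natCast, div_le_iff₀ hnp]
    refine (norm_sum_le _ _).trans ((Finset.sum_le_card_nsmul _ _ (ε / 2)
      fun j _ => hpt _).trans (le_of_eq ?_))
    rw [Finset.card_univ, ZMod.card, nsmul_eq_mul, mul_comm]
  have h3 : ‖∫ y, h y ∂haarAddCircle - ∫ y, p y ∂haarAddCircle‖ ≤ ε / 2 := by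
    rw [← integral_sub (cont_int h) (cont_int p)]
    refine (norm_integral_le_of_norm_le_const (C := ε / 2)
      (Eventually.of_forall fun y => hpt y)).trans (le_of_eq ?_)
    simp
  calc ‖HH n h x - ∫ y, h y ∂haarAddCircle‖
      = ‖(HH n h x - HH n p x) - (∫ y, h y ∂haarAddCircle - ∫ y, p y ∂haarAddCircle)‖ := by
        rw [← h1]; ring_nf
    _ ≤ ε / 2 + ε / 2 := (norm_sub_le _ _).trans (add_le_add h2 h3)
    _ = ε := add_halves ε

end sampling

/-! ## the inequality on the grids -/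

open Vale.Agent.P091.CH

/-- symmetric partial sum on the grid -/
noncomputable def SG {K : ℕ} (N : ℕ) (f : X K → ℂ) (x : X K) : ℂ :=
  ∑ k ∈ Finset.Icc (-(N : ℤ)) (N : ℤ), fc f k * ch k x

/-- (A) on the grids `X K = ZMod (2^K)`, uniformly for large `K` -/
def PGRID : Prop := ∃ C c0 : ℝ, 0 ≤ C ∧ 0 < c0 ∧ ∀ D : ℝ, 2 ≤ D → ∀ N0 : ℕ, ∃ K0 : ℕ,
  ∀ K : ℕ, K0 ≤ K → ∀ f : X K → ℝ, (∀ x, 0 ≤ f x) → (∀ x, f x ≤ Real.exp D) → ave f ≤ 1 →
    ∀ N : X K → ℕ, (∀ x, N x ≤ N0) →
      ave (fun x => if MX f x ≤ c0 * (Real.log D) ^ 2 then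
        ‖SG (N x) (fun y => (f y : ℂ)) x‖ else 0) ≤ C * D

section transfer

variable {T : ℝ} [hT : Fact (0 < T)]

/-- the sampled function -/
noncomputable def smp (K : ℕ) (f : AddCircle T → ℝ) (x : AddCircle T) (j : X K) : ℝ :=
  f (x + tau T (2 ^ K) j)

theorem ch_eq (K : ℕ) (k : ℤ) (j : X K) : ch k j = fourier k (tau T (2 ^ K) j) := by
  rw [fourier_tau]; rfl

/-- `f` times a character -/
noncomputable def fch (f : C(AddCircle T, ℝ)) (k : ℤ) : C(AddCircle T, ℂ) :=
  ⟨fun y => fourier (-k) y * (f y : ℂ), by fun_prop⟩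

theorem fc_smp (K : ℕ) (f : C(AddCircle T, ℝ)) (k : ℤ) (x : AddCircle T) :
    fc (fun j => (smp K f x j : ℂ)) k = fourier k x * HH (2 ^ K) (fch f k) x := by
  unfold fc aveC HH smp
  rw [mul_div_assoc', Finset.mul_sum]
  congr 1
  · refine Finset.sum_congr rfl fun j _ => ?_
    show (f (x + tau T (2 ^ K) j) : ℂ) * ch (-k) j =
      fourier k x * (fourier (-k) (x + tau T (2 ^ K) j) * (f (x + tau T (2 ^ K) j) : ℂ))
    rw [fourier_point_add, ch_eq (T := T)]
    have h1 : (fourier k x : ℂ) * fourier (-k) x = 1 := by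
      rw [← fourier_add]; simp
    linear_combination (-(fourier (-k) (tau T (2 ^ K) j)) * (f (x + tau T (2 ^ K) j) : ℂ)) * h1
  · push_cast; rfl

theorem SG_smp (K : ℕ) (f : C(AddCircle T, ℝ)) {N0 : ℕ} {ε : ℝ}
    (hH : ∀ k : ℤ, k.natAbs ≤ N0 → ∀ x,
      ‖HH (2 ^ K) (fch f k) x - fourierCoeff (fun y => (f y : ℂ)) k‖ ≤ ε)
    {N : ℕ} (hN : N ≤ N0) (x : AddCircle T) (j : X K) :
    ‖S N (fun y => (f y : ℂ)) (x + tau T (2 ^ K) j) -
      SG N (fun j => (smp K f x j : ℂ)) j‖ ≤ (2 * N0 + 1) * ε := by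
  have hε : 0 ≤ ε := (norm_nonneg _).trans (hH 0 (by simp) x)
  unfold S SG
  rw [← Finset.sum_sub_distrib]
  refine (norm_sum_le _ _).trans ((Finset.sum_le_card_nsmul _ _ ε fun k hk => ?_).trans ?_)
  · have hk' : k.natAbs ≤ N0 := by
      rw [Finset.mem_Icc] at hk; omega
    rw [fc_smp, ch_eq (T := T), fourier_point_add]
    have h1 : fourierCoeff (fun y => (f y : ℂ)) k * (fourier k x * fourier k (tau T (2 ^ K) j)) -
        fourier k x * HH (2 ^ K) (fch f k) x * fourier k (tau T (2 ^ K) j) =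
        -((fourier k x * fourier k (tau T (2 ^ K) j)) * (HH (2 ^ K) (fch f k) x -
          fourierCoeff (fun y => (f y : ℂ)) k)) := by ring
    rw [h1, norm_neg, norm_mul, norm_mul]
    have h2 : ∀ y : AddCircle T, ‖(fourier k y : ℂ)‖ = 1 := fun y => by
      rw [fourier_apply, Circle.norm_coe]
    rw [h2, h2, one_mul, one_mul]
    exact hH k hk' x
  · rw [nsmul_eq_mul]
    refine mul_le_mul_of_nonneg_right ?_ hε
    have h3 : (Finset.Icc (-(N:ℤ)) N).card ≤ 2 * N0 + 1 := by
      rw [Int.card_Icc]; omega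
    exact_mod_cast h3

theorem HH_real (K : ℕ) (f : C(AddCircle T, ℝ)) (x : AddCircle T) :
    ((ave (smp K f x) : ℝ) : ℂ) = HH (2 ^ K) (fch f 0) x := by
  unfold ave HH smp
  push_cast
  congr 1
  refine Finset.sum_congr rfl fun j _ => ?_
  show _ = fourier (-0) (x + tau T (2 ^ K) j) * (f (x + tau T (2 ^ K) j) : ℂ)
  simp

/-- averaging over the translates by the sampling points does not change integrals -/
theorem lintegral_ave (n : ℕ) [NeZero n] {G : AddCircle T → ℝ≥0∞} (hG : Measurable G) :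
    ∫⁻ x, (∑ j : ZMod n, G (x + tau T n j)) / n ∂haarAddCircle = ∫⁻ x, G x ∂haarAddCircle := by
  have hn : (n : ℝ≥0∞) ≠ 0 := by exact_mod_cast NeZero.ne n
  simp_rw [div_eq_mul_inv]
  rw [lintegral_mul_const _ (by
    exact Finset.measurable_sum _ fun j _ => hG.comp (measurable_add_const _))]
  have h1 := lintegral_finsetSum (μ := haarAddCircle) (Finset.univ : Finset (ZMod n))
    (f := fun j x => G (x + tau T n j)) (fun j _ => hG.comp (measurable_add_const _))
  rw [h1]
  simp_rw [lintegral_add_right_eq_self G]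
  rw [Finset.sum_const, Finset.card_univ, ZMod.card, nsmul_eq_mul, mul_comm, ← mul_assoc,
    ENNReal.inv_mul_cancel hn (ENNReal.natCast_ne_top n), one_mul]

/-- the maximal function as a function on the circle -/
theorem MX_smp (K : ℕ) (f : AddCircle T → ℝ) (x : AddCircle T) (j : X K) :
    MX (smp K f x) j = MX (smp K f (x + tau T (2 ^ K) j)) 0 := by
  unfold MX
  refine Finset.sup'_congr _ rfl fun κ _ => ?_
  congr 1
  unfold ave
  congr 1
  refine (Fintype.sum_equiv (Equiv.addRight j) _ _ fun y => ?_).symm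
  have h1 : j - (y + j) = 0 - y := by ring
  refine if_congr ?_ ?_ rfl
  · show _ ↔ nrm (j - (y + j)) ≤ _
    rw [h1]
  · show |f (x + tau T (2 ^ K) j + tau T (2 ^ K) y)| = |f (x + tau T (2 ^ K) (y + j))|
    rw [map_add, add_assoc, add_comm (tau T (2 ^ K) y)]

theorem lt_MX_measurable (K : ℕ) (f : C(AddCircle T, ℝ)) (t : ℝ) :
    MeasurableSet {y : AddCircle T | t < MX (smp K f y) 0} := by
  have h1 : {y : AddCircle T | t < MX (smp K f y) 0} = ⋃ κ ∈ Finset.range (K + 1),
      {y | t < 2 ^ κ * ave (fun z : X K => if nrm (0 - z) ≤ ((2:ℝ) ^ κ)⁻¹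
        then |smp K f y z| else 0)} := by
    ext y
    simp only [mem_iUnion, mem_ofPred_eq, exists_prop]
    unfold MX
    exact Finset.lt_sup'_iff _
  rw [h1]
  refine Finset.measurableSet_biUnion _ fun κ _ => (isOpen_lt continuous_const ?_).measurableSet
  unfold ave smp
  refine continuous_const.mul (Continuous.div_const (continuous_finsetSum _ fun z _ => ?_) _)
  show Continuous fun y => if nrm (0 - z) ≤ ((2:ℝ) ^ κ)⁻¹ then |f (y + tau T (2 ^ K) z)| else 0
  by_cases h : nrm (0 - z) ≤ ((2:ℝ) ^ κ)⁻¹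
  · simp only [if_pos h]; fun_prop
  · simp only [if_neg h]; exact continuous_const

theorem exists_SS_eq (n : ℕ) (F : AddCircle T → ℂ) (y : AddCircle T) :
    ∃ N : ℕ, N ≤ n ∧ SS n F y = ‖S N F y‖ₑ := by
  obtain ⟨N, hN⟩ := exists_eq_ciSup_of_finite (f := fun N : Fin (n + 1) => ‖S N F y‖ₑ)
  exact ⟨N, Nat.lt_succ_iff.1 N.2, hN.symm⟩

/-- **Row GRID.** -/
theorem PAw_of_PGRID (h1 : P_HL1) (h : PGRID) : PAw T := by
  obtain ⟨CH, h1⟩ := h1
  obtain ⟨C, c0, hC, hc0, h⟩ := h
  refine ⟨2 * (C + 1) + |CH| / c0, by positivity, fun D hD f f0 f1 fi n => ?_⟩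
  have hlog : 0 < Real.log D := Real.log_pos (by linarith)
  set g : C(AddCircle T, ℝ) := ⟨fun y => f y / 2, by fun_prop⟩ with hg
  have gf : ∀ y, g y = f y / 2 := fun y => rfl
  set ε : ℝ := 1 / (2 * (2 * n + 1)) with hε
  have hε0 : 0 < ε := by positivity
  have hε1 : (2 * n + 1) * ε = 1 / 2 := by rw [hε]; field_simp
  have hε2 : ε ≤ 1 / 2 := by rw [← hε1]; nlinarith [(Nat.cast_nonneg n : (0:ℝ) ≤ n)]
  choose n0 hn0 using fun k : ℤ => HH_close (fch g k) hε0
  obtain ⟨K0, hK0⟩ := h D hD n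
  set K : ℕ := max K0 ((Finset.Icc (-(n:ℤ)) n).sup n0) with hK
  have hH : ∀ k : ℤ, k.natAbs ≤ n → ∀ x,
      ‖HH (2 ^ K) (fch g k) x - fourierCoeff (fun y => (g y : ℂ)) k‖ ≤ ε := by
    intro k hk x
    refine hn0 k (2 ^ K) ?_ x
    have h2 : n0 k ≤ (Finset.Icc (-(n:ℤ)) n).sup n0 :=
      Finset.le_sup (f := n0) (Finset.mem_Icc.2 ⟨by omega, by omega⟩)
    exact (h2.trans (le_max_right K0 _)).trans Nat.lt_two_pow_self.le
  have gi : ∫ y, g y ∂haarAddCircle ≤ 1 / 2 := by
    simp_rw [gf]; rw [integral_div]; linarith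
  have gave : ∀ x, ave (smp K g x) ≤ 1 := by
    intro x
    have h2 := hH 0 (by simp) x
    rw [← HH_real] at h2
    have h3 : fourierCoeff (fun y => (g y : ℂ)) 0 = ((∫ y, g y ∂haarAddCircle : ℝ) : ℂ) := by
      unfold fourierCoeff
      simp only [neg_zero, fourier_zero, one_smul]
      exact integral_ofReal
    rw [h3, ← Complex.ofReal_sub, Complex.norm_real] at h2
    have h4 := (abs_le.1 h2).2
    linarith
  have g0 : ∀ y, 0 ≤ g y := fun y => by rw [gf]; linarith [f0 y]
  have g1 : ∀ y, g y ≤ Real.exp D := fun y => by rw [gf]; linarith [f1 y, f0 y]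
  set t : ℝ := c0 * (Real.log D) ^ 2 with ht
  have ht0 : 0 < t := by positivity
  set E : Set (AddCircle T) := {y | t < MX (smp K g y) 0} with hE
  have mE : MeasurableSet E := lt_MX_measurable K g t
  have memE : ∀ x (j : X K), x + tau T (2 ^ K) j ∈ E ↔ t < MX (smp K g x) j := by
    intro x j
    rw [MX_smp K g x j]; rfl
  have h2K : (0:ℝ) < 2 ^ K := by positivity
  have castK : ((2 ^ K : ℕ) : ℝ≥0∞) = ENNReal.ofReal (2 ^ K) := by
    rw [ENNReal.ofReal_pow (by norm_num)]; norm_num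
  refine ⟨E, mE, ?_, ?_⟩
  · -- the measure of the exceptional set
    have e1 : haarAddCircle E = ∫⁻ x, E.indicator 1 x ∂haarAddCircle := by
      rw [lintegral_indicator_one mE]
    rw [e1, ← lintegral_ave (2 ^ K) (measurable_one.indicator mE)]
    have e2 : ∀ x, (∑ j : ZMod (2 ^ K), E.indicator 1 (x + tau T (2 ^ K) j)) /
        ((2 ^ K : ℕ) : ℝ≥0∞) ≤ ENNReal.ofReal (|CH| / c0 / (Real.log D) ^ 2) := by
      intro x
      have e3 : ∑ j : ZMod (2 ^ K), E.indicator (1 : AddCircle T → ℝ≥0∞) (x + tau T (2 ^ K) j) =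
          ENNReal.ofReal ((Finset.univ.filter (fun j : X K => t < MX (smp K g x) j)).card) := by
        rw [ENNReal.ofReal_natCast, Finset.card_filter]
        push_cast
        refine Finset.sum_congr rfl fun j _ => ?_
        by_cases hj : t < MX (smp K g x) j
        · rw [if_pos hj, indicator_of_mem ((memE x j).2 hj)]; rfl
        · rw [if_neg hj, indicator_of_notMem (fun hh => hj ((memE x j).1 hh))]
      rw [e3, castK, ← ENNReal.ofReal_div_of_pos h2K]
      refine ENNReal.ofReal_le_ofReal ?_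
      have e4 := h1 K (smp K g x) t ht0
      have e5 : ave (fun j => |smp K g x j|) ≤ 1 := by
        have : (fun j => |smp K g x j|) = smp K g x := by
          ext j; exact abs_of_nonneg (g0 _)
        rw [this]; exact gave x
      have e6 : 0 ≤ ave (fun j => |smp K g x j|) := by unfold ave; positivity
      have e7 : t * mu (Finset.univ.filter (fun j : X K => t < MX (smp K g x) j)) ≤ |CH| := by
        refine e4.trans ?_
        calc CH * ave (fun j => |smp K g x j|) ≤ |CH| * ave (fun j => |smp K g x j|) :=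
              mul_le_mul_of_nonneg_right (le_abs_self _) e6
          _ ≤ |CH| * 1 := mul_le_mul_of_nonneg_left e5 (abs_nonneg _)
          _ = |CH| := mul_one _
      have e8 : |CH| / c0 / (Real.log D) ^ 2 = |CH| / t := by rw [ht, div_div]
      rw [e8, le_div_iff₀ ht0, mul_comm]
      exact e7
    calc ∫⁻ x, (∑ j : ZMod (2 ^ K), E.indicator 1 (x + tau T (2 ^ K) j)) /
          ((2 ^ K : ℕ) : ℝ≥0∞) ∂haarAddCircle
        ≤ ∫⁻ _x, ENNReal.ofReal (|CH| / c0 / (Real.log D) ^ 2) ∂(haarAddCircle (T := T)) :=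
          lintegral_mono e2
      _ = ENNReal.ofReal (|CH| / c0 / (Real.log D) ^ 2) := by simp
      _ ≤ _ := by
          refine ENNReal.ofReal_le_ofReal ?_
          exact div_le_div_of_nonneg_right (by linarith) (by positivity)
  · -- the integral
    have s1 : ∀ y, SS n (fun y => (f y : ℂ)) y = 2 * SS n (fun y => (g y : ℂ)) y := by
      intro y
      have : (fun y => (f y : ℂ)) = fun y => (2:ℂ) * (g y : ℂ) := by
        ext y; rw [gf]; push_cast; ring
      rw [this, SS_mul]
      congr 1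
      rw [← ofReal_norm]; norm_num
    set G : AddCircle T → ℝ≥0∞ := Eᶜ.indicator (SS n (fun y => (f y : ℂ))) with hG
    have mG : Measurable G := (SS_measurable n _).indicator mE.compl
    have s2 : ∫⁻ x in Eᶜ, SS n (fun y => (f y : ℂ)) x ∂haarAddCircle =
        ∫⁻ x, G x ∂haarAddCircle := (lintegral_indicator mE.compl _).symm
    rw [s2, ← lintegral_ave (2 ^ K) mG]
    have s3 : ∀ x, (∑ j : ZMod (2 ^ K), G (x + tau T (2 ^ K) j)) /
        ((2 ^ K : ℕ) : ℝ≥0∞) ≤ ENNReal.ofReal (2 * (C + 1) * D) := by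
      intro x
      choose N hN hN' using fun j : X K => exists_SS_eq n (fun y => (g y : ℂ))
        (x + tau T (2 ^ K) j)
      have s4 := hK0 K (le_max_left _ _) (smp K g x) (fun j => g0 _) (fun j => g1 _) (gave x) N hN
      have s5 : ∀ j : X K, G (x + tau T (2 ^ K) j) ≤ ENNReal.ofReal (2 * (if MX (smp K g x) j ≤ t
          then ‖SG (N j) (fun i => (smp K g x i : ℂ)) j‖ else 0) + 1) := by
        intro j
        by_cases hj : t < MX (smp K g x) j
        · have : x + tau T (2 ^ K) j ∉ Eᶜ := fun hh => hh ((memE x j).2 hj)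
          rw [hG, indicator_of_notMem this]; exact bot_le
        · have h5 : x + tau T (2 ^ K) j ∈ Eᶜ := fun hh => hj ((memE x j).1 hh)
          rw [hG, indicator_of_mem h5, if_pos (not_lt.1 hj), s1, hN', ← ofReal_norm]
          have h6 : (2 : ℝ≥0∞) = ENNReal.ofReal 2 := by norm_num
          rw [h6, ← ENNReal.ofReal_mul (by norm_num)]
          refine ENNReal.ofReal_le_ofReal ?_
          have h7 := SG_smp K g hH (hN j) x j
          rw [hε1] at h7
          have h8 := norm_sub_norm_le (S (N j) (fun y => (g y : ℂ)) (x + tau T (2 ^ K) j))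
            (SG (N j) (fun i => (smp K g x i : ℂ)) j)
          linarith
      have s6 : ∑ j : ZMod (2 ^ K), G (x + tau T (2 ^ K) j) ≤
          ENNReal.ofReal (∑ j : X K, (2 * (if MX (smp K g x) j ≤ t
          then ‖SG (N j) (fun i => (smp K g x i : ℂ)) j‖ else 0) + 1)) := by
        rw [ENNReal.ofReal_sum_of_nonneg fun j _ => by split_ifs <;> positivity]
        exact Finset.sum_le_sum fun j _ => s5 j
      refine (ENNReal.div_le_div_right s6 _).trans ?_
      rw [castK, ← ENNReal.ofReal_div_of_pos h2K]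
      refine ENNReal.ofReal_le_ofReal ?_
      rw [Finset.sum_add_distrib, ← Finset.mul_sum, add_div, mul_div_assoc]
      have s7 : (∑ _j : X K, (1:ℝ)) / 2 ^ K = 1 := by
        rw [Finset.sum_const, Finset.card_univ, ZMod.card, nsmul_eq_mul, mul_one]
        push_cast
        exact div_self h2K.ne'
      rw [s7]
      unfold ave at s4
      nlinarith
    calc ∫⁻ x, (∑ j : ZMod (2 ^ K), G (x + tau T (2 ^ K) j)) /
          ((2 ^ K : ℕ) : ℝ≥0∞) ∂haarAddCircle
        ≤ ∫⁻ _x, ENNReal.ofReal (2 * (C + 1) * D) ∂(haarAddCircle (T := T)) :=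
          lintegral_mono s3
      _ = ENNReal.ofReal (2 * (C + 1) * D) := by simp
      _ ≤ _ := by
          refine ENNReal.ofReal_le_ofReal ?_
          have : 0 ≤ |CH| / c0 * D := by positivity
          nlinarith

end transfer

/-- `PGRID` implies almost everywhere convergence on `L log L`. -/
theorem ae_convergence_of_PGRID (h : PGRID) {T : ℝ} [Fact (0 < T)] (f : AddCircle T → ℂ)
    (hm : AEStronglyMeasurable f haarAddCircle)
    (hL : Integrable (fun x => ‖f x‖ * Real.log (2 + ‖f x‖)) haarAddCircle) :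
    ∀ᵐ x ∂haarAddCircle, Tendsto (fun N : ℕ =>
      ∑ k ∈ Finset.Icc (-(N : ℤ)) (N : ℤ), fourierCoeff f k * fourier k x) atTop (𝓝 (f x)) :=
  ae_convergence (PAw_of_PGRID H69.pHL1 h) f hm hL

end Vale.Agent.P091.H253
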