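import Mathlib

/-!
# P091, row T0 : from the maximal inequality (A) to almost everywhere convergence on `L log L`

`PA T` is the inequality (A) : for every height `exp D` there is an exceptional set of measure
`C / (log D)^2` outside of which the Carleson maximal function of a function `0 ≤ f ≤ exp D` of
mass `≤ 1` has integral at most `C D`.
-/

open MeasureTheory AddCircle Set Filter Topology
open scoped ENNReal NNReal

namespace Vale.Agent.P091.H253

variable {T : ℝ} [hT : Fact (0 < T)]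

/-- symmetric partial sum -/
noncomputable def S (N : ℕ) (f : AddCircle T → ℂ) (x : AddCircle T) : ℂ :=
  ∑ k ∈ Finset.Icc (-(N : ℤ)) (N : ℤ), fourierCoeff f k * fourier k x

/-- maximal function over the partial sums of order at most `n` -/
noncomputable def SS (n : ℕ) (f : AddCircle T → ℂ) (x : AddCircle T) : ℝ≥0∞ :=
  ⨆ N : Fin (n + 1), ‖S N f x‖ₑ

/-- maximal function plus modulus -/
noncomputable def MM (n : ℕ) (f : AddCircle T → ℂ) (x : AddCircle T) : ℝ≥0∞ := SS n f x + ‖f x‖ₑ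

/-- (A) : one-height inequality for the Carleson maximal function; the exceptional set may depend
on everything, `f` is continuous -/
def PAw (T : ℝ) [Fact (0 < T)] : Prop :=
  ∃ C : ℝ, 0 ≤ C ∧ ∀ D : ℝ, 2 ≤ D → ∀ f : C(AddCircle T, ℝ),
    (∀ x, 0 ≤ f x) → (∀ x, f x ≤ Real.exp D) → ∫ x, f x ∂haarAddCircle ≤ 1 →
    ∀ n : ℕ, ∃ E : Set (AddCircle T), MeasurableSet E ∧
      haarAddCircle E ≤ ENNReal.ofReal (C / (Real.log D) ^ 2) ∧
      ∫⁻ x in Eᶜ, SS n (fun y => (f y : ℂ)) x ∂haarAddCircle ≤ ENNReal.ofReal (C * D)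

/-- the same for measurable functions -/
def PAm (T : ℝ) [Fact (0 < T)] : Prop :=
  ∃ C : ℝ, 0 ≤ C ∧ ∀ D : ℝ, 2 ≤ D → ∀ f : AddCircle T → ℝ, Measurable f →
    (∀ x, 0 ≤ f x) → (∀ x, f x ≤ Real.exp D) → ∫ x, f x ∂haarAddCircle ≤ 1 →
    ∀ n : ℕ, ∃ E : Set (AddCircle T), MeasurableSet E ∧
      haarAddCircle E ≤ ENNReal.ofReal (C / (Real.log D) ^ 2) ∧
      ∫⁻ x in Eᶜ, SS n (fun y => (f y : ℂ)) x ∂haarAddCircle ≤ ENNReal.ofReal (C * D)

/-- (A) with one exceptional set and the supremum over all partial sums -/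
def PA (T : ℝ) [Fact (0 < T)] : Prop :=
  ∃ C : ℝ, 0 ≤ C ∧ ∀ D : ℝ, 2 ≤ D → ∀ f : AddCircle T → ℝ, Measurable f →
    (∀ x, 0 ≤ f x) → (∀ x, f x ≤ Real.exp D) → ∫ x, f x ∂haarAddCircle ≤ 1 →
    ∃ E : Set (AddCircle T), MeasurableSet E ∧
      haarAddCircle E ≤ ENNReal.ofReal (C / (Real.log D) ^ 2) ∧
      ∫⁻ x in Eᶜ, ⨆ N : ℕ, ‖S N (fun y => (f y : ℂ)) x‖ₑ ∂haarAddCircle ≤ ENNReal.ofReal (C * D)

theorem PAw_of_PA (h : PA T) : PAw T := by
  obtain ⟨C, hC, h⟩ := h
  refine ⟨C, hC, fun D hD f f0 f1 fi n => ?_⟩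
  obtain ⟨E, mE, h1, h2⟩ := h D hD f f.continuous.measurable f0 f1 fi
  refine ⟨E, mE, h1, (lintegral_mono fun x => ?_).trans h2⟩
  exact iSup_le fun N => le_iSup (fun N : ℕ => ‖S N (fun y => (f y : ℂ)) x‖ₑ) (N : ℕ)

/-! ## elementary properties of the partial sums -/

theorem S_continuous (N : ℕ) (f : AddCircle T → ℂ) : Continuous (S N f) := by
  unfold S
  refine continuous_finsetSum _ fun k _ => ?_
  exact continuous_const.mul (fourier k).continuous

theorem S_add (N : ℕ) {f g : AddCircle T → ℂ} (hf : Integrable f haarAddCircle)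
    (hg : Integrable g haarAddCircle) (x : AddCircle T) :
    S N (f + g) x = S N f x + S N g x := by
  unfold S
  rw [← Finset.sum_add_distrib, fourierCoeff.add hf hg]
  refine Finset.sum_congr rfl fun k _ => ?_
  simp only [Pi.add_apply]; ring

theorem S_mul (N : ℕ) (c : ℂ) (f : AddCircle T → ℂ) (x : AddCircle T) :
    S N (fun y => c * f y) x = c * S N f x := by
  unfold S
  rw [Finset.mul_sum]
  refine Finset.sum_congr rfl fun k _ => ?_
  rw [fourierCoeff.const_mul]; ring

theorem S_congr (N : ℕ) {f g : AddCircle T → ℂ} (h : f =ᵐ[haarAddCircle] g) :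
    S N f = S N g := by
  unfold S; rw [fourierCoeff_congr_ae h]

theorem SS_measurable (n : ℕ) (f : AddCircle T → ℂ) : Measurable (SS n f) := by
  unfold SS
  exact Measurable.iSup fun N => (S_continuous N f).measurable.enorm

theorem MM_measurable (n : ℕ) {f : AddCircle T → ℂ} (hf : Measurable f) : Measurable (MM n f) :=
  (SS_measurable n f).add hf.enorm

theorem SS_add (n : ℕ) {f g : AddCircle T → ℂ} (hf : Integrable f haarAddCircle)
    (hg : Integrable g haarAddCircle) (x : AddCircle T) :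
    SS n (f + g) x ≤ SS n f x + SS n g x := by
  unfold SS
  refine iSup_le fun N => ?_
  rw [S_add N hf hg]
  refine (enorm_add_le _ _).trans ?_
  exact add_le_add (le_iSup (fun N : Fin (n + 1) => ‖S N f x‖ₑ) N)
    (le_iSup (fun N : Fin (n + 1) => ‖S N g x‖ₑ) N)

theorem MM_add (n : ℕ) {f g : AddCircle T → ℂ} (hf : Integrable f haarAddCircle)
    (hg : Integrable g haarAddCircle) (x : AddCircle T) :
    MM n (f + g) x ≤ MM n f x + MM n g x := by
  unfold MM
  calc SS n (f + g) x + ‖(f + g) x‖ₑ ≤ (SS n f x + SS n g x) + (‖f x‖ₑ + ‖g x‖ₑ) :=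
        add_le_add (SS_add n hf hg x) (enorm_add_le _ _)
    _ = _ := by ring

theorem SS_mul (n : ℕ) (c : ℂ) (f : AddCircle T → ℂ) (x : AddCircle T) :
    SS n (fun y => c * f y) x = ‖c‖ₑ * SS n f x := by
  unfold SS
  rw [ENNReal.mul_iSup]
  congr 1; ext N
  rw [S_mul, enorm_mul]

omit hT in
theorem enorm_fourier (k : ℤ) (x : AddCircle T) : ‖(fourier k x : ℂ)‖ₑ = 1 := by
  rw [← ofReal_norm, fourier_apply, Circle.norm_coe, ENNReal.ofReal_one]

theorem S_norm_le (N : ℕ) (f : AddCircle T → ℂ) (x : AddCircle T) :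
    ‖S N f x‖ₑ ≤ (2 * N + 1 : ℕ) * ∫⁻ y, ‖f y‖ₑ ∂haarAddCircle := by
  unfold S
  refine (enorm_sum_le _ _).trans ?_
  have : ∀ k ∈ Finset.Icc (-(N : ℤ)) (N : ℤ), ‖fourierCoeff f k * fourier k x‖ₑ
      ≤ ∫⁻ y, ‖f y‖ₑ ∂haarAddCircle := by
    intro k _
    rw [enorm_mul]
    have h1 : ‖(fourier k x : ℂ)‖ₑ = 1 := enorm_fourier k x
    rw [h1, mul_one]
    unfold fourierCoeff
    refine (enorm_integral_le_lintegral_enorm _).trans (le_of_eq ?_)
    refine lintegral_congr fun y => ?_
    rw [enorm_smul]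
    have h2 : ‖(fourier (-k) y : ℂ)‖ₑ = 1 := enorm_fourier (-k) y
    rw [h2, one_mul]
  refine (Finset.sum_le_card_nsmul _ _ _ this).trans (le_of_eq ?_)
  rw [nsmul_eq_mul]
  congr 2
  simp; omega

theorem SS_le (n : ℕ) (f : AddCircle T → ℂ) (x : AddCircle T) :
    SS n f x ≤ (2 * n + 1 : ℕ) * ∫⁻ y, ‖f y‖ₑ ∂haarAddCircle := by
  unfold SS
  refine iSup_le fun N => (S_norm_le N f x).trans ?_
  gcongr
  exact Nat.lt_succ_iff.1 N.2

/-- from continuous to measurable functions -/
theorem PAm_of_PAw (h : PAw T) : PAm T := by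
  obtain ⟨C, hC, h⟩ := h
  refine ⟨C + 1, by linarith, fun D hD f mf f0 f1 fi n => ?_⟩
  have if' : Integrable f haarAddCircle := Integrable.of_bound mf.aestronglyMeasurable
    (Real.exp D) (Eventually.of_forall fun x => by rw [Real.norm_of_nonneg (f0 x)]; exact f1 x)
  set δ : ℝ := 1 / (2 * (2 * n + 1)) with hδ
  have hδ0 : 0 < δ := by positivity
  obtain ⟨g, hg, ig⟩ := if'.exists_boundedContinuous_integral_sub_le hδ0
  have h1δ : 0 < 1 + δ := by positivity
  let q : C(AddCircle T, ℝ) := ⟨fun x => max 0 (min (Real.exp D) (g x)), by fun_prop⟩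
  let p : C(AddCircle T, ℝ) := ⟨fun x => q x / (1 + δ), by fun_prop⟩
  have iq : Integrable q haarAddCircle :=
    q.continuous.integrable_of_hasCompactSupport (HasCompactSupport.of_compactSpace q)
  have ip : Integrable p haarAddCircle :=
    p.continuous.integrable_of_hasCompactSupport (HasCompactSupport.of_compactSpace p)
  have hq : ∀ x, q x = max 0 (min (Real.exp D) (g x)) := fun x => rfl
  have hp : ∀ x, p x = q x / (1 + δ) := fun x => rfl
  have q0 : ∀ x, 0 ≤ q x := fun x => le_max_left _ _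
  have q1 : ∀ x, q x ≤ Real.exp D := fun x => max_le (Real.exp_pos _).le (min_le_left _ _)
  have hqf : ∀ x, |f x - q x| ≤ |f x - g x| := by
    intro x
    rw [hq]
    rcases le_total (g x) 0 with h1 | h1
    · rw [max_eq_left (min_le_of_right_le h1), abs_of_nonneg (by linarith [f0 x]),
        abs_of_nonneg (by linarith [f0 x])]; linarith
    · rcases le_total (g x) (Real.exp D) with h2 | h2
      · rw [min_eq_right h2, max_eq_right h1]
      · rw [min_eq_left h2, max_eq_right (Real.exp_pos _).le, abs_sub_comm,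
          abs_of_nonneg (by linarith [f1 x]), abs_sub_comm, abs_of_nonneg (by linarith [f1 x])]
        linarith
  have hqf' : ∫ x, |f x - q x| ∂haarAddCircle ≤ δ :=
    (integral_mono (if'.sub iq).abs (if'.sub ig).abs hqf).trans hg
  have hqi : ∫ x, q x ∂haarAddCircle ≤ 1 + δ := by
    have h1 : ∫ x, q x ∂haarAddCircle ≤ ∫ x, (f x + |f x - q x|) ∂haarAddCircle :=
      integral_mono iq (if'.add (if'.sub iq).abs) fun x => by
        have := neg_abs_le (f x - q x); simp only []; linarith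
    have h2 : ∫ x, (f x + |f x - q x|) ∂haarAddCircle =
        ∫ x, f x ∂haarAddCircle + ∫ x, |f x - q x| ∂haarAddCircle :=
      integral_add if' (if'.sub iq).abs
    linarith
  have hpi : ∫ x, p x ∂haarAddCircle ≤ 1 := by
    simp_rw [hp]
    rw [integral_div, div_le_one h1δ]; exact hqi
  have hpf : ∫ x, |f x - p x| ∂haarAddCircle ≤ 2 * δ := by
    have h3 : ∀ x, |f x - p x| ≤ |f x - q x| + δ * p x := by
      intro x
      have h4 : f x - p x = (f x - q x) + δ * p x := by
        rw [hp]; field_simp; ring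
      rw [h4]
      refine (abs_add_le _ _).trans (add_le_add le_rfl (le_of_eq (abs_of_nonneg ?_)))
      exact mul_nonneg hδ0.le (div_nonneg (q0 x) h1δ.le)
    calc ∫ x, |f x - p x| ∂haarAddCircle ≤ ∫ x, (|f x - q x| + δ * p x) ∂haarAddCircle :=
          integral_mono (if'.sub ip).abs ((if'.sub iq).abs.add (ip.const_mul δ)) h3
      _ = ∫ x, |f x - q x| ∂haarAddCircle + δ * ∫ x, p x ∂haarAddCircle := by
          rw [← integral_const_mul]
          exact integral_add (if'.sub iq).abs (ip.const_mul δ)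
      _ ≤ 2 * δ := by nlinarith
  obtain ⟨E, mE, e1, e2⟩ := h D hD p (fun x => div_nonneg (q0 x) h1δ.le)
    (fun x => (div_le_self (q0 x) (by linarith)).trans (q1 x)) hpi n
  refine ⟨E, mE, e1.trans (ENNReal.ofReal_le_ofReal ?_), ?_⟩
  · exact div_le_div_of_nonneg_right (by linarith) (by positivity)
  · have ifp : Integrable (fun y => ((f y - p y : ℝ) : ℂ)) haarAddCircle := (if'.sub ip).ofReal
    have h5 : ∀ x, SS n (fun y => (f y : ℂ)) x ≤ SS n (fun y => (p y : ℂ)) x + 1 := by
      intro x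
      have h6 : (fun y => (f y : ℂ)) = (fun y => (p y : ℂ)) + (fun y => ((f y - p y : ℝ) : ℂ)) := by
        ext y; simp
      rw [h6]
      refine (SS_add n ip.ofReal ifp x).trans (add_le_add le_rfl ((SS_le n _ x).trans ?_))
      have h7 : ∫⁻ y, ‖((f y - p y : ℝ) : ℂ)‖ₑ ∂haarAddCircle ≤ ENNReal.ofReal (2 * δ) := by
        rw [← ofReal_integral_norm_eq_lintegral_enorm ifp]
        refine ENNReal.ofReal_le_ofReal (le_trans (le_of_eq ?_) hpf)
        refine integral_congr_ae (Eventually.of_forall fun y => ?_)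
        simp only []
        rw [Complex.norm_real, Real.norm_eq_abs]
      refine (mul_le_mul_right h7 _).trans (le_of_eq ?_)
      rw [← ENNReal.ofReal_natCast, ← ENNReal.ofReal_mul (by positivity), ← ENNReal.ofReal_one]
      congr 1
      rw [hδ]; push_cast; field_simp
    calc ∫⁻ x in Eᶜ, SS n (fun y => (f y : ℂ)) x ∂haarAddCircle
        ≤ ∫⁻ x in Eᶜ, (SS n (fun y => (p y : ℂ)) x + 1) ∂haarAddCircle :=
          lintegral_mono fun x => h5 x
      _ = ∫⁻ x in Eᶜ, SS n (fun y => (p y : ℂ)) x ∂haarAddCircle + haarAddCircle Eᶜ := by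
          rw [lintegral_add_left (SS_measurable n _)]; simp
      _ ≤ ENNReal.ofReal (C * D) + 1 := add_le_add e2 prob_le_one
      _ ≤ ENNReal.ofReal ((C + 1) * D) := by
          rw [← ENNReal.ofReal_one, ← ENNReal.ofReal_add (by positivity) one_pos.le]
          exact ENNReal.ofReal_le_ofReal (by nlinarith)

/-! ## the inequality for complex functions -/

/-- the conclusion of (A) for a function `F` of mass `a` -/
def Bd (n : ℕ) (C D a : ℝ) (F : AddCircle T → ℂ) : Prop :=
  ∃ E : Set (AddCircle T), MeasurableSet E ∧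
      haarAddCircle E ≤ ENNReal.ofReal (C / (Real.log D) ^ 2) ∧
      ∫⁻ x in Eᶜ, SS n F x ∂haarAddCircle ≤ ENNReal.ofReal (C * a * D)

theorem Bd.add {n : ℕ} {C C' D a : ℝ} {F G : AddCircle T → ℂ} (hC : 0 ≤ C) (hC' : 0 ≤ C')
    (ha : 0 ≤ a) (hD : 0 ≤ D) (hF : Bd n C D a F) (hG : Bd n C' D a G)
    (iF : Integrable F haarAddCircle) (iG : Integrable G haarAddCircle) :
    Bd n (C + C') D a (F + G) := by
  obtain ⟨E, mE, h1, h2⟩ := hF
  obtain ⟨E', mE', h1', h2'⟩ := hG
  refine ⟨E ∪ E', mE.union mE', ?_, ?_⟩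
  · calc haarAddCircle (E ∪ E') ≤ haarAddCircle E + haarAddCircle E' := measure_union_le _ _
      _ ≤ ENNReal.ofReal (C / (Real.log D) ^ 2) + ENNReal.ofReal (C' / (Real.log D) ^ 2) :=
        add_le_add h1 h1'
      _ = ENNReal.ofReal ((C + C') / (Real.log D) ^ 2) := by
        rw [← ENNReal.ofReal_add (by positivity) (by positivity), add_div]
  · calc ∫⁻ x in (E ∪ E')ᶜ, SS n (F + G) x ∂haarAddCircle
        ≤ ∫⁻ x in (E ∪ E')ᶜ, (SS n F x + SS n G x) ∂haarAddCircle :=
          lintegral_mono fun x => SS_add n iF iG x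
      _ = ∫⁻ x in (E ∪ E')ᶜ, SS n F x ∂haarAddCircle + ∫⁻ x in (E ∪ E')ᶜ, SS n G x ∂haarAddCircle :=
          lintegral_add_left (SS_measurable n F) _
      _ ≤ ∫⁻ x in Eᶜ, SS n F x ∂haarAddCircle + ∫⁻ x in E'ᶜ, SS n G x ∂haarAddCircle :=
          add_le_add (lintegral_mono_set (compl_subset_compl.2 subset_union_left))
            (lintegral_mono_set (compl_subset_compl.2 subset_union_right))
      _ ≤ ENNReal.ofReal (C * a * D) + ENNReal.ofReal (C' * a * D) := add_le_add h2 h2'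
      _ = ENNReal.ofReal ((C + C') * a * D) := by
        rw [← ENNReal.ofReal_add (by positivity) (by positivity)]
        congr 1; ring

theorem Bd.mul {n : ℕ} {C D a : ℝ} {F : AddCircle T → ℂ} {c : ℂ} (hc : ‖c‖ₑ = 1) (hF : Bd n C D a F) :
    Bd n C D a (fun y => c * F y) := by
  obtain ⟨E, mE, h1, h2⟩ := hF
  refine ⟨E, mE, h1, ?_⟩
  have : ∀ x, SS n (fun y => c * F y) x = SS n F x := fun x => by rw [SS_mul, hc, one_mul]
  simpa [this] using h2

theorem integrable_of_bdd {F : AddCircle T → ℂ} (hF : Measurable F) {H : ℝ}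
    (hH : ∀ x, ‖F x‖ ≤ H) : Integrable F haarAddCircle :=
  Integrable.of_bound hF.aestronglyMeasurable H (Eventually.of_forall hH)

/-- the real case with mass `a` -/
theorem bd_real {n : ℕ} {C : ℝ} (hA : ∀ D : ℝ, 2 ≤ D → ∀ f : AddCircle T → ℝ, Measurable f →
    (∀ x, 0 ≤ f x) → (∀ x, f x ≤ Real.exp D) → ∫ x, f x ∂haarAddCircle ≤ 1 →
    ∃ E : Set (AddCircle T), MeasurableSet E ∧
      haarAddCircle E ≤ ENNReal.ofReal (C / (Real.log D) ^ 2) ∧
      ∫⁻ x in Eᶜ, SS n (fun y => (f y : ℂ)) x ∂haarAddCircle ≤ ENNReal.ofReal (C * D))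
    {D a H : ℝ} (hD : 2 ≤ D) (ha : 0 < a) (hH : H ≤ a * Real.exp D)
    {f : AddCircle T → ℝ} (mf : Measurable f) (h0 : ∀ x, 0 ≤ f x) (h1 : ∀ x, f x ≤ H)
    (hi : ∫ x, f x ∂haarAddCircle ≤ a) : Bd n C D a (fun y => (f y : ℂ)) := by
  obtain ⟨E, mE, e1, e2⟩ := hA D hD (fun x => f x / a) (mf.div_const a)
    (fun x => div_nonneg (h0 x) ha.le)
    (fun x => by rw [div_le_iff₀ ha]; linarith [h1 x, mul_comm a (Real.exp D)])
    (by rw [integral_div, div_le_one ha]; exact hi)
  refine ⟨E, mE, e1, ?_⟩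
  have ha' : (a : ℂ) ≠ 0 := by exact_mod_cast ha.ne'
  have : ∀ x, SS n (fun y => (f y : ℂ)) x = ENNReal.ofReal a * SS n (fun y => ((f y / a : ℝ) : ℂ)) x := by
    intro x
    have h2 : (fun y => (f y : ℂ)) = fun y => (a : ℂ) * ((f y / a : ℝ) : ℂ) := by
      ext y; push_cast; field_simp
    rw [h2, SS_mul]
    congr 1
    rw [← ofReal_norm, Complex.norm_real, Real.norm_of_nonneg ha.le]
  simp_rw [this]
  rw [lintegral_const_mul _ (SS_measurable n _)]
  refine (mul_le_mul_right e2 _).trans (le_of_eq ?_)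
  rw [← ENNReal.ofReal_mul ha.le]
  congr 1; ring

theorem maxlemma (hA : PAm T) : ∃ C : ℝ, 0 ≤ C ∧ ∀ (D a H : ℝ), 2 ≤ D → 0 < a →
    H ≤ a * Real.exp D → ∀ F : AddCircle T → ℂ, Measurable F → (∀ x, ‖F x‖ ≤ H) →
      ∫ x, ‖F x‖ ∂haarAddCircle ≤ a → ∀ n : ℕ,
      ∃ E : Set (AddCircle T), MeasurableSet E ∧
        haarAddCircle E ≤ ENNReal.ofReal (C / (Real.log D) ^ 2) ∧
        ∫⁻ x in Eᶜ, MM n F x ∂haarAddCircle ≤ ENNReal.ofReal (C * a * D) := by
  obtain ⟨C, hC, hA⟩ := hA
  refine ⟨C + C + (C + C) + 1, by positivity, fun D a H hD ha hH F mF bF iF n => ?_⟩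
  have iF' : Integrable F haarAddCircle := integrable_of_bdd mF bF
  have key : ∀ u : AddCircle T → ℝ, Measurable u → (∀ x, |u x| ≤ ‖F x‖) →
      Bd n C D a (fun y => ((max (u y) 0 : ℝ) : ℂ)) ∧
      Integrable (fun y => ((max (u y) 0 : ℝ) : ℂ)) haarAddCircle := by
    intro u mu hu
    have h1 : ∀ x, max (u x) 0 ≤ ‖F x‖ := fun x =>
      max_le ((le_abs_self _).trans (hu x)) (norm_nonneg _)
    have m1 : Measurable fun y => max (u y) 0 := mu.max measurable_const
    have i1 : Integrable (fun y => max (u y) 0) haarAddCircle :=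
      Integrable.of_bound m1.aestronglyMeasurable H (Eventually.of_forall fun x => by
        rw [Real.norm_of_nonneg (le_max_right _ _)]; exact (h1 x).trans (bF x))
    refine ⟨bd_real (fun D hD f mf f0 f1 fi => hA D hD f mf f0 f1 fi n) hD ha hH m1 (fun x => le_max_right _ _) (fun x => (h1 x).trans (bF x)) ?_,
      i1.ofReal⟩
    exact (integral_mono i1 iF'.norm h1).trans iF
  have m1 : Measurable fun x => (F x).re := Complex.measurable_re.comp mF
  have m2 : Measurable fun x => (F x).im := Complex.measurable_im.comp mF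
  obtain ⟨b1, i1⟩ := key (fun x => (F x).re) m1 fun x => Complex.abs_re_le_norm _
  obtain ⟨b2, i2⟩ := key (fun x => -(F x).re) m1.neg fun x => by
    rw [abs_neg]; exact Complex.abs_re_le_norm _
  obtain ⟨b3, i3⟩ := key (fun x => (F x).im) m2 fun x => Complex.abs_im_le_norm _
  obtain ⟨b4, i4⟩ := key (fun x => -(F x).im) m2.neg fun x => by
    rw [abs_neg]; exact Complex.abs_im_le_norm _
  have e1 : ‖(-1 : ℂ)‖ₑ = 1 := by simp
  have e2 : ‖Complex.I‖ₑ = 1 := by rw [← ofReal_norm, Complex.norm_I, ENNReal.ofReal_one]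
  have e3 : ‖-Complex.I‖ₑ = 1 := by rw [enorm_neg, e2]
  have hD0 : (0:ℝ) ≤ D := by linarith
  have B := (b1.add hC hC ha.le hD0 (b2.mul e1) i1 (i2.const_mul (-1))).add (by positivity)
    (by positivity) ha.le hD0 ((b3.mul e2).add hC hC ha.le hD0 (b4.mul e3) (i3.const_mul _)
    (i4.const_mul _)) (i1.add (i2.const_mul (-1))) ((i3.const_mul _).add (i4.const_mul _))
  have hpm : ∀ t : ℝ, ((max t 0 : ℝ) : ℂ) - ((max (-t) 0 : ℝ) : ℂ) = t := by
    intro t
    rw [← Complex.ofReal_sub]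
    congr 1
    rcases le_total t 0 with h | h
    · rw [max_eq_right h, max_eq_left (by linarith)]; ring
    · rw [max_eq_left h, max_eq_right (by linarith)]; ring
  have hF : ((fun y => ((max (F y).re 0 : ℝ) : ℂ)) + (fun y => -1 * ((max (-(F y).re) 0 : ℝ) : ℂ))) +
      ((fun y => Complex.I * ((max (F y).im 0 : ℝ) : ℂ)) +
        (fun y => -Complex.I * ((max (-(F y).im) 0 : ℝ) : ℂ))) = F := by
    ext y
    simp only [Pi.add_apply]
    have h1 := hpm (F y).re
    have h2 := hpm (F y).im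
    calc _ = (((max (F y).re 0 : ℝ) : ℂ) - ((max (-(F y).re) 0 : ℝ) : ℂ)) +
          Complex.I * (((max (F y).im 0 : ℝ) : ℂ) - ((max (-(F y).im) 0 : ℝ) : ℂ)) := by ring
      _ = _ := by rw [h1, h2, mul_comm]; exact Complex.re_add_im _
  rw [hF] at B
  obtain ⟨E, mE, h1, h2⟩ := B
  refine ⟨E, mE, h1.trans (ENNReal.ofReal_le_ofReal ?_), ?_⟩
  · exact div_le_div_of_nonneg_right (by linarith) (by positivity)
  · unfold MM
    rw [lintegral_add_left (SS_measurable n F)]
    have h3 : ∫⁻ x in Eᶜ, ‖F x‖ₑ ∂haarAddCircle ≤ ENNReal.ofReal (1 * a * D) := by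
      calc ∫⁻ x in Eᶜ, ‖F x‖ₑ ∂haarAddCircle ≤ ∫⁻ x, ‖F x‖ₑ ∂haarAddCircle :=
            setLIntegral_le_lintegral _ _
        _ = ENNReal.ofReal (∫ x, ‖F x‖ ∂haarAddCircle) :=
            (ofReal_integral_norm_eq_lintegral_enorm iF').symm
        _ ≤ ENNReal.ofReal (1 * a * D) := ENNReal.ofReal_le_ofReal (iF.trans (by nlinarith))
    refine (add_le_add h2 h3).trans (le_of_eq ?_)
    rw [← ENNReal.ofReal_add (by positivity) (by positivity)]
    congr 1; ring

/-! ## smallness in measure -/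

/-- `MM F` is small outside of a small set -/
def Sm (F : AddCircle T → ℂ) (ε : ℝ≥0∞) : Prop := ∀ n : ℕ, haarAddCircle {x | ε < MM n F x} ≤ ε

theorem Sm.add {F G : AddCircle T → ℂ} {ε ε' : ℝ≥0∞} (hF : Sm F ε) (hG : Sm G ε')
    (iF : Integrable F haarAddCircle) (iG : Integrable G haarAddCircle) : Sm (F + G) (ε + ε') := by
  intro n
  refine (measure_mono (t := {x | ε < MM n F x} ∪ {x | ε' < MM n G x}) fun x hx => ?_).trans
    ((measure_union_le _ _).trans (add_le_add (hF n) (hG n)))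
  by_contra hn
  simp only [mem_union, mem_ofPred_eq, not_or, not_lt] at hn hx
  exact absurd (hx.trans_le (MM_add n iF iG x)) (not_lt.2 (add_le_add hn.1 hn.2))

theorem cheb {n : ℕ} {F : AddCircle T → ℂ} (mF : Measurable F) {E : Set (AddCircle T)} {ε : ℝ≥0∞}
    (hε : ε ≠ 0) (hε' : ε ≠ ∞) :
    haarAddCircle {x | ε < MM n F x} ≤
      haarAddCircle E + (∫⁻ x in Eᶜ, MM n F x ∂haarAddCircle) / ε := by
  calc haarAddCircle {x | ε < MM n F x}
      ≤ haarAddCircle (E ∪ {x | ε ≤ MM n F x} ∩ Eᶜ) := measure_mono fun x hx => by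
        by_cases h : x ∈ E
        · exact Or.inl h
        · exact Or.inr ⟨(show ε < MM n F x from hx).le, h⟩
    _ ≤ haarAddCircle E + haarAddCircle ({x | ε ≤ MM n F x} ∩ Eᶜ) := measure_union_le _ _
    _ ≤ _ := by
        gcongr
        rw [ENNReal.le_div_iff_mul_le (Or.inl hε) (Or.inl hε'), mul_comm]
        have := mul_meas_ge_le_lintegral (μ := haarAddCircle.restrict Eᶜ) (MM_measurable n mF) ε
        rwa [Measure.restrict_apply (measurableSet_le measurable_const (MM_measurable n mF))] at this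

/-- bounded functions of small mass -/
theorem sm_bdd (hA : PAm T) (H : ℝ) (hH : 0 < H) (ε : ℝ) (hε : 0 < ε) :
    ∃ δ : ℝ, 0 < δ ∧ ∀ F : AddCircle T → ℂ, Measurable F → (∀ x, ‖F x‖ ≤ H) →
      ∫ x, ‖F x‖ ∂haarAddCircle ≤ δ → Sm F (ENNReal.ofReal ε) := by
  obtain ⟨C, hC, hA⟩ := maxlemma hA
  have t1 : Tendsto (fun D : ℝ => C / (Real.log D) ^ 2) atTop (𝓝 0) :=
    tendsto_const_nhds.div_atTop ((tendsto_pow_atTop two_ne_zero).comp Real.tendsto_log_atTop)
  have t2 : Tendsto (fun D : ℝ => C * H / ε * (D ^ 1 * Real.exp (-D))) atTop (𝓝 0) := by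
    simpa using (Real.tendsto_pow_mul_exp_neg_atTop_nhds_zero 1).const_mul (C * H / ε)
  obtain ⟨D, h1, h2, h3⟩ := ((t1.eventually_lt_const (half_pos hε)).and
    ((t2.eventually_lt_const (half_pos hε)).and (eventually_ge_atTop (2:ℝ)))).exists
  refine ⟨H * Real.exp (-D), by positivity, fun F mF bF iF n => ?_⟩
  obtain ⟨E, mE, e1, e2⟩ := hA D (H * Real.exp (-D)) H h3 (by positivity)
    (by rw [mul_assoc, ← Real.exp_add]; simp) F mF bF iF n
  have hε0 : ENNReal.ofReal ε ≠ 0 := by simpa using hε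
  refine (cheb mF (E := E) hε0 ENNReal.ofReal_ne_top).trans ?_
  calc haarAddCircle E + (∫⁻ x in Eᶜ, MM n F x ∂haarAddCircle) / ENNReal.ofReal ε
      ≤ ENNReal.ofReal (ε / 2) + ENNReal.ofReal (ε / 2) := by
        refine add_le_add (e1.trans (ENNReal.ofReal_le_ofReal h1.le)) ?_
        refine (ENNReal.div_le_div_right e2 _).trans ?_
        rw [← ENNReal.ofReal_div_of_pos hε]
        refine ENNReal.ofReal_le_ofReal (le_trans (le_of_eq ?_) h2.le)
        simp only [pow_one]; ring
    _ = ENNReal.ofReal ε := by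
        rw [← ENNReal.ofReal_add (by positivity) (by positivity)]; congr 1; ring

/-! ## trigonometric polynomials -/

/-- continuous functions reproduced by their partial sums -/
def TP (p : C(AddCircle T, ℂ)) : Prop := ∀ᶠ N : ℕ in atTop, ∀ x, S N p x = p x

theorem cont_int (p : C(AddCircle T, ℂ)) : Integrable p haarAddCircle :=
  p.continuous.integrable_of_hasCompactSupport (HasCompactSupport.of_compactSpace p)

theorem TP_of_mem {p : C(AddCircle T, ℂ)} (hp : p ∈ Submodule.span ℂ (range (@fourier T))) :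
    TP p := by
  induction hp using Submodule.span_induction with
  | mem p hp =>
    obtain ⟨n, rfl⟩ := hp
    refine (eventually_ge_atTop n.natAbs).mono fun N hN x => ?_
    unfold S
    rw [fourierCoeff_fourier, Finset.sum_eq_single n]
    · simp
    · intro k _ hk; simp [Pi.single_eq_of_ne hk]
    · intro h; exact absurd (Finset.mem_Icc.2 ⟨by omega, by omega⟩) h
  | zero =>
    refine Eventually.of_forall fun N x => ?_
    have : ((0 : C(AddCircle T, ℂ)) : AddCircle T → ℂ) = fun y => (0:ℂ) * (0:ℂ) := by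
      ext y; simp
    rw [this, S_mul]; simp
  | add p q _ _ hp hq =>
    filter_upwards [hp, hq] with N h1 h2 x
    rw [ContinuousMap.coe_add, S_add N (cont_int p) (cont_int q), h1, h2, Pi.add_apply]
  | smul c p _ hp =>
    filter_upwards [hp] with N h1 x
    have : ((c • p : C(AddCircle T, ℂ)) : AddCircle T → ℂ) = fun y => c * p y := by
      ext y; simp
    rw [this, S_mul, h1]

theorem exists_TP (G : C(AddCircle T, ℂ)) {η : ℝ} (hη : 0 < η) :
    ∃ p : C(AddCircle T, ℂ), TP p ∧ ∀ x, ‖G x - p x‖ ≤ η := by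
  have h : G ∈ closure ((Submodule.span ℂ (range (@fourier T)) : Submodule ℂ C(AddCircle T, ℂ)) :
      Set C(AddCircle T, ℂ)) := by
    rw [← Submodule.topologicalClosure_coe, span_fourier_closure_eq_top]; trivial
  obtain ⟨p, hp, hd⟩ := Metric.mem_closure_iff.1 h η hη
  refine ⟨p, TP_of_mem hp, fun x => ?_⟩
  rw [dist_eq_norm] at hd
  exact ((G - p).norm_coe_le_norm x).trans hd.le

/-- a bounded function is close in measure to a trigonometric polynomial -/
theorem bounded_approx (hA : PAm T) {g : AddCircle T → ℂ} (mg : Measurable g) {M : ℝ} (hM : 0 < M)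
    (hg : ∀ x, ‖g x‖ ≤ M) {ε : ℝ} (hε : 0 < ε) :
    ∃ p : C(AddCircle T, ℂ), TP p ∧ Sm (fun x => g x - p x) (ENNReal.ofReal ε) := by
  obtain ⟨δ, hδ, h1⟩ := sm_bdd hA (2 * M) (by positivity) (ε / 2) (by positivity)
  obtain ⟨η, hη, h2⟩ := sm_bdd hA 1 one_pos (ε / 2) (by positivity)
  have ig := integrable_of_bdd mg hg
  obtain ⟨G, hG, iG⟩ := ig.exists_boundedContinuous_integral_sub_le (half_pos hδ)
  have hmax : ∀ z : ℂ, 0 < max M ‖z‖ := fun z => lt_max_of_lt_left hM
  let R : C(AddCircle T, ℂ) := ⟨fun x => ((M / max M ‖G x‖ : ℝ) : ℂ) * G x, by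
    refine Continuous.mul (Complex.continuous_ofReal.comp ?_) G.continuous
    exact continuous_const.div (continuous_const.max G.continuous.norm) fun x => (hmax _).ne'⟩
  have hR : ∀ x, R x = ((M / max M ‖G x‖ : ℝ) : ℂ) * G x := fun x => rfl
  have hRM : ∀ x, ‖R x‖ ≤ M := by
    intro x
    rw [hR, norm_mul, Complex.norm_real, Real.norm_of_nonneg (by positivity), div_mul_eq_mul_div,
      div_le_iff₀ (hmax _)]
    exact mul_le_mul_of_nonneg_left (le_max_right _ _) hM.le
  have hGR : ∀ x, ‖G x - R x‖ ≤ ‖g x - G x‖ := by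
    intro x
    have h3 : G x - R x = ((1 - M / max M ‖G x‖ : ℝ) : ℂ) * G x := by
      rw [hR]; push_cast; ring
    have h4 : M / max M ‖G x‖ ≤ 1 := (div_le_one (hmax _)).2 (le_max_left _ _)
    rw [h3, norm_mul, Complex.norm_real, Real.norm_of_nonneg (by linarith)]
    rcases le_total ‖G x‖ M with h | h
    · rw [max_eq_left h, div_self hM.ne']; simp
    · rw [max_eq_right h]
      have h5 : 0 < ‖G x‖ := hM.trans_le h
      have h6 : (1 - M / ‖G x‖) * ‖G x‖ = ‖G x‖ - M := by field_simp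
      rw [h6]
      have := norm_sub_norm_le (G x) (g x)
      rw [norm_sub_rev] at this
      linarith [hg x]
  have iR := cont_int R
  obtain ⟨p, hp, hpη⟩ := exists_TP R (lt_min hη one_pos)
  refine ⟨p, hp, ?_⟩
  have s1 : Sm (fun x => g x - R x) (ENNReal.ofReal (ε / 2)) := by
    refine h1 _ (mg.sub R.continuous.measurable) (fun x => ?_) ?_
    · exact (norm_sub_le _ _).trans (by linarith [hg x, hRM x])
    · have : ∀ x, ‖g x - R x‖ ≤ 2 * ‖g x - G x‖ := fun x =>
        calc ‖g x - R x‖ = ‖(g x - G x) + (G x - R x)‖ := by ring_nf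
          _ ≤ ‖g x - G x‖ + ‖G x - R x‖ := norm_add_le _ _
          _ ≤ 2 * ‖g x - G x‖ := by linarith [hGR x]
      calc ∫ x, ‖g x - R x‖ ∂haarAddCircle ≤ ∫ x, 2 * ‖g x - G x‖ ∂haarAddCircle :=
            integral_mono (ig.sub iR).norm ((ig.sub iG).norm.const_mul 2) this
        _ ≤ δ := by rw [integral_const_mul]; linarith
  have s2 : Sm (fun x => R x - p x) (ENNReal.ofReal (ε / 2)) := by
    refine h2 _ (R.continuous.measurable.sub p.continuous.measurable)
      (fun x => (hpη x).trans (min_le_right _ _)) ?_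
    calc ∫ x, ‖R x - p x‖ ∂haarAddCircle ≤ ∫ _x : AddCircle T, η ∂haarAddCircle :=
          integral_mono (iR.sub (cont_int p)).norm (integrable_const _)
            fun x => (hpη x).trans (min_le_left _ _)
      _ = η := by simp
  have s3 := s1.add s2 (ig.sub iR) (iR.sub (cont_int p))
  rw [← ENNReal.ofReal_add (by positivity) (by positivity), add_halves] at s3
  convert s3 using 1
  ext x; simp

/-! ## levels -/

/-- level of a nonnegative number -/
noncomputable def lev (t : ℝ) : ℕ := Nat.log 2 (Nat.log 2 ⌊t⌋₊)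

theorem lev_lt (t : ℝ) : t < 2 ^ 2 ^ (lev t + 1) := by
  have h1 : Nat.log 2 ⌊t⌋₊ < 2 ^ (lev t + 1) := Nat.lt_pow_succ_log_self one_lt_two _
  have h2 : ⌊t⌋₊ < 2 ^ (Nat.log 2 ⌊t⌋₊ + 1) := Nat.lt_pow_succ_log_self one_lt_two _
  have h3 : ⌊t⌋₊ + 1 ≤ 2 ^ 2 ^ (lev t + 1) := h2.trans_le (Nat.pow_le_pow_right two_pos h1)
  have h4 : ((⌊t⌋₊ + 1 : ℕ) : ℝ) ≤ 2 ^ 2 ^ (lev t + 1) := by exact_mod_cast h3
  have := Nat.lt_floor_add_one t
  push_cast at h4
  linarith

theorem lev_le (t : ℝ) (h : 1 ≤ lev t) : 2 ^ 2 ^ lev t ≤ t := by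
  have hm : Nat.log 2 ⌊t⌋₊ ≠ 0 := by
    intro h0; unfold lev at h; rw [h0] at h; simp at h
  have hn : ⌊t⌋₊ ≠ 0 := by
    intro h0; rw [h0] at hm; simp at hm
  have h1 : 2 ^ lev t ≤ Nat.log 2 ⌊t⌋₊ := Nat.pow_log_le_self 2 hm
  have h2 : 2 ^ Nat.log 2 ⌊t⌋₊ ≤ ⌊t⌋₊ := Nat.pow_log_le_self 2 hn
  have h3 : 2 ^ 2 ^ lev t ≤ ⌊t⌋₊ := (Nat.pow_le_pow_right two_pos h1).trans h2
  have h4 : (2:ℝ) ^ 2 ^ lev t ≤ (⌊t⌋₊ : ℝ) := by exact_mod_cast h3
  exact h4.trans (Nat.floor_le (Nat.pos_of_floor_pos (Nat.pos_of_ne_zero hn)).le)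

theorem lev_log {t : ℝ} (ht : 0 ≤ t) : 2 ^ lev t * Real.log 2 ≤ Real.log (2 + t) := by
  rcases Nat.eq_zero_or_pos (lev t) with h | h
  · rw [h, pow_zero, one_mul]
    exact Real.log_le_log two_pos (by linarith)
  · have h1 := lev_le t h
    have h2 : Real.log (2 ^ 2 ^ lev t) ≤ Real.log (2 + t) :=
      Real.log_le_log (by positivity) (by linarith)
    rw [Real.log_pow] at h2
    push_cast at h2
    exact h2

theorem lev_measurable : Measurable lev :=
  (measurable_from_nat (f := fun n => Nat.log 2 (Nat.log 2 n))).comp Nat.measurable_floor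

/-- piece of level `j` -/
noncomputable def pc (f : AddCircle T → ℂ) (j : ℕ) (x : AddCircle T) : ℂ :=
  if lev ‖f x‖ = j then f x else 0

/-- levels at least `J` -/
noncomputable def tl (f : AddCircle T → ℂ) (J : ℕ) (x : AddCircle T) : ℂ :=
  if J ≤ lev ‖f x‖ then f x else 0

/-- levels below `J` -/
noncomputable def hd (f : AddCircle T → ℂ) (J : ℕ) (x : AddCircle T) : ℂ :=
  if lev ‖f x‖ < J then f x else 0

section pieces

variable {f : AddCircle T → ℂ}

omit hT in
theorem pc_measurable (mf : Measurable f) (j : ℕ) : Measurable (pc f j) := by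
  refine Measurable.ite ?_ mf measurable_const
  exact (lev_measurable.comp mf.norm) (measurableSet_singleton j)

omit hT in
theorem tl_measurable (mf : Measurable f) (j : ℕ) : Measurable (tl f j) := by
  refine Measurable.ite ?_ mf measurable_const
  exact (lev_measurable.comp mf.norm) (measurableSet_Ici (a := j))

omit hT in
theorem hd_measurable (mf : Measurable f) (j : ℕ) : Measurable (hd f j) := by
  refine Measurable.ite ?_ mf measurable_const
  exact (lev_measurable.comp mf.norm) (measurableSet_Iio (a := j))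

omit hT in
theorem pc_norm_le (j : ℕ) (x : AddCircle T) : ‖pc f j x‖ ≤ ‖f x‖ := by
  unfold pc; split_ifs <;> simp

omit hT in
theorem tl_norm_le (j : ℕ) (x : AddCircle T) : ‖tl f j x‖ ≤ ‖f x‖ := by
  unfold tl; split_ifs <;> simp

omit hT in
theorem pc_bdd (j : ℕ) (x : AddCircle T) : ‖pc f j x‖ ≤ 2 ^ 2 ^ (j + 1) := by
  unfold pc; split_ifs with h
  · rw [← h]; exact (lev_lt _).le
  · simp

omit hT in
theorem hd_bdd (J : ℕ) (x : AddCircle T) : ‖hd f J x‖ ≤ 2 ^ 2 ^ J := by
  unfold hd; split_ifs with h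
  · exact (lev_lt _).le.trans (pow_le_pow_right₀ one_le_two (Nat.pow_le_pow_right two_pos h))
  · simp

omit hT in
theorem hd_add_tl (J : ℕ) : (fun x => hd f J x) + (fun x => tl f J x) = f := by
  ext x; simp only [Pi.add_apply, hd, tl]
  rcases lt_or_ge (lev ‖f x‖) J with h | h
  · rw [if_pos h, if_neg (not_le.2 h), add_zero]
  · rw [if_neg (not_lt.2 h), if_pos h, zero_add]

omit hT in
theorem pc_hasSum (J : ℕ) (x : AddCircle T) : HasSum (fun j => pc f (j + J) x) (tl f J x) := by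
  unfold tl pc
  split_ifs with h
  · have := hasSum_single (f := fun j => if lev ‖f x‖ = j + J then f x else 0) (lev ‖f x‖ - J)
      (fun j hj => if_neg (by omega))
    rwa [if_pos (by omega)] at this
  · have : (fun j => if lev ‖f x‖ = j + J then f x else (0:ℂ)) = fun _ => 0 := by
      ext j; exact if_neg (by omega)
    rw [this]; exact hasSum_zero

omit hT in
theorem pc_hasSum_norm (J : ℕ) (x : AddCircle T) :
    HasSum (fun j => ‖pc f (j + J) x‖) ‖tl f J x‖ := by
  unfold tl pc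
  split_ifs with h
  · have := hasSum_single (f := fun j => ‖if lev ‖f x‖ = j + J then f x else 0‖) (lev ‖f x‖ - J)
      (fun j hj => by rw [if_neg (by omega), norm_zero])
    rwa [if_pos (by omega)] at this
  · have : (fun j => ‖if lev ‖f x‖ = j + J then f x else (0:ℂ)‖) = fun _ => 0 := by
      ext j; rw [if_neg (by omega), norm_zero]
    rw [this, norm_zero]; exact hasSum_zero

theorem pc_int (mf : Measurable f) (hf : Integrable f haarAddCircle) (j : ℕ) :
    Integrable (pc f j) haarAddCircle :=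
  hf.mono (pc_measurable mf j).aestronglyMeasurable (Eventually.of_forall fun x => pc_norm_le j x)

theorem tl_int (mf : Measurable f) (hf : Integrable f haarAddCircle) (j : ℕ) :
    Integrable (tl f j) haarAddCircle :=
  hf.mono (tl_measurable mf j).aestronglyMeasurable (Eventually.of_forall fun x => tl_norm_le j x)

theorem coeff_hasSum (mf : Measurable f) (hf : Integrable f haarAddCircle) (J : ℕ) (k : ℤ) :
    HasSum (fun j => fourierCoeff (pc f (j + J)) k) (fourierCoeff (tl f J) k) := by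
  unfold fourierCoeff
  refine hasSum_integral_of_dominated_convergence (fun j x => ‖pc f (j + J) x‖)
    (fun j => ((pc_int mf hf (j + J)).fourier_smul _).aestronglyMeasurable)
    (fun j => Eventually.of_forall fun x => ?_)
    (Eventually.of_forall fun x => (pc_hasSum_norm J x).summable) ?_
    (Eventually.of_forall fun x => ?_)
  · rw [norm_smul, fourier_apply, Circle.norm_coe, one_mul]
  · simp_rw [fun x => (pc_hasSum_norm (f := f) J x).tsum_eq]
    exact (tl_int mf hf J).norm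
  · simp only [smul_eq_mul]
    exact (pc_hasSum J x).mul_left _

theorem S_hasSum (mf : Measurable f) (hf : Integrable f haarAddCircle) (J N : ℕ)
    (x : AddCircle T) : HasSum (fun j => S N (pc f (j + J)) x) (S N (tl f J) x) := by
  unfold S
  exact hasSum_sum fun k _ => (coeff_hasSum mf hf J k).mul_right _

theorem enorm_hasSum_le {u : ℕ → ℂ} {z : ℂ} (h : HasSum u z) : ‖z‖ₑ ≤ ∑' j, ‖u j‖ₑ := by
  refine le_of_tendsto h.tendsto_sum_nat.enorm (Eventually.of_forall fun n => ?_)
  exact (enorm_sum_le _ _).trans (ENNReal.sum_le_tsum _)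

theorem MM_tl_le (mf : Measurable f) (hf : Integrable f haarAddCircle) (J : ℕ)
    (n : ℕ) (x : AddCircle T) : MM n (tl f J) x ≤ ∑' j, MM n (pc f (j + J)) x := by
  unfold MM
  rw [ENNReal.tsum_add]
  refine add_le_add ?_ (enorm_hasSum_le (pc_hasSum J x))
  unfold SS
  refine iSup_le fun N => (enorm_hasSum_le (S_hasSum mf hf J N x)).trans ?_
  exact ENNReal.tsum_le_tsum fun j => le_iSup (fun N : Fin (n + 1) => ‖S N (pc f (j + J)) x‖ₑ) N

/-- the weighted masses of the pieces are summable -/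
theorem summable_pc (mf : Measurable f)
    (hL : Integrable (fun x => ‖f x‖ * Real.log (2 + ‖f x‖)) haarAddCircle) :
    Summable fun j : ℕ => 2 ^ j * ∫ x, ‖pc f j x‖ ∂haarAddCircle := by
  have h2 : 0 < Real.log 2 := Real.log_pos one_lt_two
  have h1 : ∑' j : ℕ, ∫⁻ x, ENNReal.ofReal (2 ^ j * ‖pc f j x‖) ∂haarAddCircle ≠ ∞ := by
    rw [← lintegral_tsum fun j => ((pc_measurable mf j).norm.const_mul _).ennreal_ofReal.aemeasurable]
    refine ne_top_of_le_ne_top (hL.div_const (Real.log 2)).lintegral_lt_top.ne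
      (lintegral_mono fun x => ?_)
    rw [tsum_eq_single (lev ‖f x‖)]
    · refine ENNReal.ofReal_le_ofReal ?_
      rw [le_div_iff₀ h2]
      have := lev_log (norm_nonneg (f x))
      have h3 : ‖pc f (lev ‖f x‖) x‖ = ‖f x‖ := by unfold pc; rw [if_pos rfl]
      rw [h3]
      nlinarith [norm_nonneg (f x)]
    · intro j hj
      have : pc f j x = 0 := if_neg (Ne.symm hj)
      rw [this]; simp
  refine (ENNReal.summable_toReal h1).congr fun j => ?_
  rw [← integral_const_mul, integral_eq_lintegral_of_nonneg_ae]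
  · exact Eventually.of_forall fun x => by positivity
  · exact ((pc_measurable mf j).norm.const_mul _).aestronglyMeasurable

end pieces

/-! ## the tail -/

theorem summable_exp : Summable fun j : ℕ => (2:ℝ) ^ j * Real.exp (-2 ^ j) := by
  refine Summable.of_nonneg_of_le (fun j => by positivity) (fun j => ?_)
    ((summable_geometric_two).mul_left 2)
  have h0 : (0:ℝ) < 2 ^ j := by positivity
  have h1 := Real.quadratic_le_exp_of_nonneg h0.le
  rw [Real.exp_neg, one_div, inv_pow]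
  rw [← div_eq_mul_inv, ← div_eq_mul_inv, div_le_div_iff₀ (Real.exp_pos _) h0]
  nlinarith

theorem sm_tail (hA : PAm T) {f : AddCircle T → ℂ} (mf : Measurable f)
    (hf : Integrable f haarAddCircle)
    (hL : Integrable (fun x => ‖f x‖ * Real.log (2 + ‖f x‖)) haarAddCircle)
    {ε : ℝ} (hε : 0 < ε) : ∃ J : ℕ, Sm (tl f J) (ENNReal.ofReal ε) := by
  obtain ⟨C, hC, hA⟩ := maxlemma hA
  set a : ℕ → ℝ := fun j => ∫ x, ‖pc f j x‖ ∂haarAddCircle + Real.exp (-2 ^ j) with ha
  have ha0 : ∀ j, 0 < a j := fun j =>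
    add_pos_of_nonneg_of_pos (integral_nonneg fun x => norm_nonneg _) (Real.exp_pos _)
  have hlog : ∀ j : ℕ, (j + 1 : ℝ) * Real.log 2 ≤ Real.log (3 * 2 ^ j) := by
    intro j
    have : (j + 1 : ℝ) * Real.log 2 = Real.log (2 * 2 ^ j) := by
      rw [← pow_succ', Real.log_pow]; push_cast; ring
    rw [this]
    exact Real.log_le_log (by positivity) (by gcongr; norm_num)
  have h2 : 0 < Real.log 2 := Real.log_pos one_lt_two
  have hv : Summable fun j : ℕ => C / (Real.log (3 * 2 ^ j)) ^ 2 + C * a j * (3 * 2 ^ j) / ε := by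
    refine Summable.add ?_ ?_
    · have h3 : Summable fun j : ℕ => C / (Real.log 2) ^ 2 * (1 / ((j:ℝ) + 1) ^ 2) := by
        refine Summable.mul_left _ ?_
        have := (summable_nat_add_iff 1).2 (Real.summable_one_div_nat_pow.2 one_lt_two)
        refine this.congr fun j => ?_
        push_cast; rfl
      refine Summable.of_nonneg_of_le (fun j => by positivity) (fun j => ?_) h3
      have h4 : 0 < (j + 1 : ℝ) * Real.log 2 := by positivity
      rw [div_mul_div_comm, mul_one, ← mul_pow]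
      refine div_le_div_of_nonneg_left hC (by positivity) ?_
      rw [mul_comm (Real.log 2)]
      exact pow_le_pow_left₀ h4.le (hlog j) 2
    · have h3 := ((summable_pc mf hL).add summable_exp).mul_left (3 * C / ε)
      refine h3.congr fun j => ?_
      simp only [ha]; ring
  have ht := ENNReal.tendsto_sum_nat_add _ hv.tsum_ofReal_ne_top
  have hε0 : 0 < ENNReal.ofReal ε := by simpa using hε
  obtain ⟨J, hJ⟩ := (ht.eventually_lt_const hε0).exists
  refine ⟨J, fun n => ?_⟩
  have hE : ∀ j : ℕ, ∃ E : Set (AddCircle T), MeasurableSet E ∧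
        haarAddCircle E ≤ ENNReal.ofReal (C / (Real.log (3 * 2 ^ j)) ^ 2) ∧
        ∫⁻ x in Eᶜ, MM n (pc f j) x ∂haarAddCircle ≤ ENNReal.ofReal (C * a j * (3 * 2 ^ j)) := by
    intro j
    refine hA (3 * 2 ^ j) (a j) (2 ^ 2 ^ (j + 1)) ?_ (ha0 j) ?_ (pc f j) (pc_measurable mf j)
      (pc_bdd j) ?_ n
    · have : (1:ℝ) ≤ 2 ^ j := one_le_pow₀ one_le_two
      linarith
    · have h3 : Real.exp (-2 ^ j) ≤ a j := by
        simp only [ha]
        have : 0 ≤ ∫ x, ‖pc f j x‖ ∂haarAddCircle := integral_nonneg fun x => norm_nonneg _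
        linarith
      calc (2:ℝ) ^ 2 ^ (j + 1) ≤ (Real.exp 1) ^ 2 ^ (j + 1) := by
            gcongr; linarith [Real.add_one_le_exp 1]
        _ = Real.exp (-2 ^ j) * Real.exp (3 * 2 ^ j) := by
            rw [← Real.exp_nat_mul, ← Real.exp_add]; congr 1; push_cast; ring
        _ ≤ a j * Real.exp (3 * 2 ^ j) := by gcongr
    · simp only [ha]; linarith [Real.exp_pos (-2 ^ j)]
  choose E mE h1 h2 using hE
  refine (cheb (E := ⋃ j, E (j + J)) (tl_measurable mf J) hε0.ne' ENNReal.ofReal_ne_top).trans ?_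
  calc haarAddCircle (⋃ j, E (j + J)) +
        (∫⁻ x in (⋃ j, E (j + J))ᶜ, MM n (tl f J) x ∂haarAddCircle) / ENNReal.ofReal ε
      ≤ (∑' j, ENNReal.ofReal (C / (Real.log (3 * 2 ^ (j + J))) ^ 2)) +
        (∑' j, ENNReal.ofReal (C * a (j + J) * (3 * 2 ^ (j + J)))) / ENNReal.ofReal ε := by
        gcongr ?_ + ?_ / _
        · exact (measure_iUnion_le _).trans (ENNReal.tsum_le_tsum fun j => h1 (j + J))
        · calc ∫⁻ x in (⋃ j, E (j + J))ᶜ, MM n (tl f J) x ∂haarAddCircle
              ≤ ∫⁻ x in (⋃ j, E (j + J))ᶜ, ∑' j, MM n (pc f (j + J)) x ∂haarAddCircle :=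
                lintegral_mono fun x => MM_tl_le mf hf J n x
            _ = ∑' j, ∫⁻ x in (⋃ j, E (j + J))ᶜ, MM n (pc f (j + J)) x ∂haarAddCircle :=
                lintegral_tsum fun j => (MM_measurable n (pc_measurable mf _)).aemeasurable
            _ ≤ ∑' j, ENNReal.ofReal (C * a (j + J) * (3 * 2 ^ (j + J))) :=
                ENNReal.tsum_le_tsum fun j => (lintegral_mono_set (compl_subset_compl.2
                  (subset_iUnion (fun j => E (j + J)) j))).trans (h2 (j + J))
    _ = ∑' j, ENNReal.ofReal (C / (Real.log (3 * 2 ^ (j + J))) ^ 2 +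
          C * a (j + J) * (3 * 2 ^ (j + J)) / ε) := by
        rw [div_eq_mul_inv, ← ENNReal.tsum_mul_right, ← ENNReal.tsum_add]
        refine tsum_congr fun j => ?_
        have := ha0 (j + J)
        rw [← div_eq_mul_inv, ← ENNReal.ofReal_div_of_pos hε,
          ← ENNReal.ofReal_add (by positivity) (by positivity)]
    _ ≤ ENNReal.ofReal ε := hJ.le

/-! ## convergence -/

theorem approx (hA : PAm T) {f : AddCircle T → ℂ} (mf : Measurable f)
    (hf : Integrable f haarAddCircle)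
    (hL : Integrable (fun x => ‖f x‖ * Real.log (2 + ‖f x‖)) haarAddCircle)
    {ε : ℝ} (hε : 0 < ε) :
    ∃ p : C(AddCircle T, ℂ), TP p ∧ Sm (fun x => f x - p x) (ENNReal.ofReal ε) := by
  obtain ⟨J, hJ⟩ := sm_tail hA mf hf hL (half_pos hε)
  obtain ⟨p, hp, hs⟩ := bounded_approx hA (hd_measurable mf J) (M := 2 ^ 2 ^ J) (by positivity)
    (hd_bdd J) (half_pos hε)
  refine ⟨p, hp, ?_⟩
  have s3 := hs.add hJ ((integrable_of_bdd (hd_measurable mf J) (hd_bdd J)).sub (cont_int p))
    (tl_int mf hf J)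
  rw [← ENNReal.ofReal_add (by positivity) (by positivity), add_halves] at s3
  convert s3 using 1
  ext x
  have := congrFun (hd_add_tl (f := f) J) x
  simp only [Pi.add_apply] at this ⊢
  rw [← this]; ring

theorem MM_mono {m n : ℕ} (h : m ≤ n) (F : AddCircle T → ℂ) (x : AddCircle T) :
    MM m F x ≤ MM n F x := by
  unfold MM SS
  refine add_le_add (iSup_le fun N => ?_) le_rfl
  exact le_iSup (fun N : Fin (n + 1) => ‖S N F x‖ₑ) ⟨N, by omega⟩

theorem Sm.sup {F : AddCircle T → ℂ} {ε : ℝ≥0∞} (h : Sm F ε) :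
    haarAddCircle {x | ε < ⨆ n, MM n F x} ≤ ε := by
  have h1 : {x | ε < ⨆ n, MM n F x} = ⋃ n, {x | ε < MM n F x} := by
    ext x; simp [lt_iSup_iff]
  have h2 : Monotone fun n : ℕ => {x | ε < MM n F x} :=
    fun m n hmn x hx => lt_of_lt_of_le (show ε < MM m F x from hx) (MM_mono hmn F x)
  rw [h1, h2.measure_iUnion]
  exact iSup_le h

theorem diff_le {f : AddCircle T → ℂ} (hf : Integrable f haarAddCircle) {p : C(AddCircle T, ℂ)}
    (hp : TP p) (x : AddCircle T) :
    ∀ᶠ N : ℕ in atTop, ‖S N f x - f x‖ₑ ≤ ⨆ n, MM n (fun x => f x - p x) x := by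
  filter_upwards [hp] with N hN
  have h1 : S N f x = S N (fun x => f x - p x) x + p x := by
    have h3 : S N f x = S N ((fun x => f x - p x) + (p : AddCircle T → ℂ)) x := by
      congr 1
      ext y; simp
    have h4 : Integrable (fun x => f x - p x) haarAddCircle := hf.sub (cont_int p)
    rw [h3, S_add N h4 (cont_int p), hN]
  have h2 : S N f x - f x = S N (fun x => f x - p x) x - (f x - p x) := by rw [h1]; ring
  rw [h2]
  refine (enorm_sub_le).trans (le_trans ?_ (le_iSup (fun n => MM n (fun x => f x - p x) x) N))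
  unfold MM SS
  exact add_le_add (le_iSup (fun M : Fin (N + 1) => ‖S M (fun x => f x - p x) x‖ₑ)
    ⟨N, Nat.lt_succ_self N⟩) le_rfl

theorem ae_conv_meas (hA : PAm T) {f : AddCircle T → ℂ} (mf : Measurable f)
    (hf : Integrable f haarAddCircle)
    (hL : Integrable (fun x => ‖f x‖ * Real.log (2 + ‖f x‖)) haarAddCircle) :
    ∀ᵐ x ∂haarAddCircle, Tendsto (fun N => S N f x) atTop (𝓝 (f x)) := by
  have hε : ∀ n : ℕ, (0:ℝ) < 1 / (n + 1) := fun n => Nat.one_div_pos_of_nat
  choose p hp hs using fun n : ℕ => approx hA mf hf hL (hε n)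
  have key : ∀ m : ℕ, ∀ᵐ x ∂haarAddCircle,
      ∀ᶠ N : ℕ in atTop, ‖S N f x - f x‖ₑ ≤ ENNReal.ofReal (1 / (m + 1)) := by
    intro m
    rw [ae_iff]
    refine le_antisymm (ge_of_tendsto (f := fun n : ℕ => ENNReal.ofReal (1 / (n + 1)))
      (x := atTop) ?_ ?_) bot_le
    · simpa using ENNReal.tendsto_ofReal tendsto_one_div_add_atTop_nhds_zero_nat
    · filter_upwards [eventually_ge_atTop m] with n hn
      refine (measure_mono fun x hx => ?_).trans (hs n).sup
      by_contra hx'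
      refine hx ?_
      filter_upwards [diff_le hf (hp n) x] with N hN
      refine hN.trans ((not_lt.1 hx').trans (ENNReal.ofReal_le_ofReal ?_))
      exact one_div_le_one_div_of_le (by positivity) (by exact_mod_cast Nat.add_le_add_right hn 1)
  filter_upwards [ae_all_iff.2 key] with x hx
  rw [tendsto_iff_edist_tendsto_0, ENNReal.tendsto_nhds_zero]
  intro ε hε
  have h1 : Tendsto (fun n : ℕ => ENNReal.ofReal (1 / (n + 1))) atTop (𝓝 0) := by
    simpa using ENNReal.tendsto_ofReal tendsto_one_div_add_atTop_nhds_zero_nat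
  obtain ⟨m, hm⟩ := (h1.eventually_lt_const hε).exists
  filter_upwards [hx m] with N hN
  rw [edist_eq_enorm_sub]
  exact hN.trans hm.le

/-- **Row T0.** (A) implies almost everywhere convergence on `L log L`. -/
theorem ae_convergence (hA : PAw T) (f : AddCircle T → ℂ)
    (hm : AEStronglyMeasurable f haarAddCircle)
    (hL : Integrable (fun x => ‖f x‖ * Real.log (2 + ‖f x‖)) haarAddCircle) :
    ∀ᵐ x ∂haarAddCircle, Tendsto (fun N : ℕ =>
      ∑ k ∈ Finset.Icc (-(N : ℤ)) (N : ℤ), fourierCoeff f k * fourier k x) atTop (𝓝 (f x)) := by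
  have h2 : 0 < Real.log 2 := Real.log_pos one_lt_two
  have hf : Integrable f haarAddCircle := by
    refine (hL.div_const (Real.log 2)).mono hm (Eventually.of_forall fun x => ?_)
    have h3 : Real.log 2 ≤ Real.log (2 + ‖f x‖) :=
      Real.log_le_log two_pos (by linarith [norm_nonneg (f x)])
    rw [Real.norm_of_nonneg (div_nonneg (mul_nonneg (norm_nonneg _) (h2.le.trans h3)) h2.le),
      le_div_iff₀ h2]
    exact mul_le_mul_of_nonneg_left h3 (norm_nonneg _)
  obtain ⟨g, mg, hg⟩ : ∃ g : AddCircle T → ℂ, Measurable g ∧ f =ᵐ[haarAddCircle] g :=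
    ⟨hm.aemeasurable.mk f, hm.aemeasurable.measurable_mk, hm.aemeasurable.ae_eq_mk⟩
  have hLg : Integrable (fun x => ‖g x‖ * Real.log (2 + ‖g x‖)) haarAddCircle := by
    refine hL.congr ?_
    filter_upwards [hg] with x hx
    rw [hx]
  have := ae_conv_meas (PAm_of_PAw hA) mg (hf.congr hg) hLg
  filter_upwards [this, hg] with x hx hgx
  rw [hgx]
  refine hx.congr fun N => ?_
  rw [← S_congr N hg]; rfl

end Vale.Agent.P091.H253
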