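import Vale.Agent.P091.H253.T0

/-!
# P091 : the weak `L¹` estimate for the Carleson maximal function on `L log L`

`PAm T` (the inequality (A)) implies `λ |{S^* f > λ}| ≤ C ‖f‖_{L log L}` (Luxemburg norm), by
continuity in measure and Stein's argument (translations and random signs).
-/

open MeasureTheory AddCircle Set Filter Topology
open scoped ENNReal NNReal

namespace Vale.Agent.P091.H253

/-! ## the function `t log (2 + t)` -/

/-- `t log (2 + t)` -/
noncomputable def ph (t : ℝ) : ℝ := t * Real.log (2 + t)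

theorem ph_nonneg {t : ℝ} (ht : 0 ≤ t) : 0 ≤ ph t :=
  mul_nonneg ht (Real.log_nonneg (by linarith))

theorem ph_mono {s t : ℝ} (hs : 0 ≤ s) (h : s ≤ t) : ph s ≤ ph t := by
  unfold ph
  exact mul_le_mul h (Real.log_le_log (by linarith) (by linarith))
    (Real.log_nonneg (by linarith)) (hs.trans h)

/-- tangent line inequality -/
theorem ph_tangent {s t : ℝ} (hs : 0 ≤ s) (ht : 0 ≤ t) :
    ph t + (Real.log (2 + t) + t / (2 + t)) * (s - t) ≤ ph s := by
  unfold ph
  have h2t : 0 < 2 + t := by linarith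
  have h2s : 0 < 2 + s := by linarith
  have h1 : 1 - ((2 + s) / (2 + t))⁻¹ ≤ Real.log ((2 + s) / (2 + t)) :=
    Real.one_sub_inv_le_log_of_pos (by positivity)
  rw [Real.log_div h2s.ne' h2t.ne', inv_div] at h1
  have h2 : 1 - (2 + t) / (2 + s) = (s - t) / (2 + s) := by field_simp; ring
  rw [h2] at h1
  have h3 : (s - t) * (t / (2 + t)) ≤ s * ((s - t) / (2 + s)) := by
    have h4 : s * ((s - t) / (2 + s)) - (s - t) * (t / (2 + t)) =
        2 * (s - t) ^ 2 / ((2 + s) * (2 + t)) := by field_simp; ring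
    have h5 : 0 ≤ 2 * (s - t) ^ 2 / ((2 + s) * (2 + t)) := by positivity
    linarith
  nlinarith [mul_le_mul_of_nonneg_left h1 hs]

theorem ph_sum {ι : Type*} (A : Finset ι) (u : ι → ℝ) (hu : ∀ i ∈ A, 0 ≤ u i) {c : ℝ} (hc : 0 ≤ c)
    (hc1 : A.card * c ≤ 1) : ph (c * ∑ i ∈ A, u i) ≤ c * ∑ i ∈ A, ph (u i) := by
  set t := c * ∑ i ∈ A, u i with ht
  have ht0 : 0 ≤ t := mul_nonneg hc (Finset.sum_nonneg hu)
  have h1 : ∑ i ∈ A, (ph t + (Real.log (2 + t) + t / (2 + t)) * (u i - t)) ≤
      ∑ i ∈ A, ph (u i) := Finset.sum_le_sum fun i hi => ph_tangent (hu i hi) ht0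
  have h2 := mul_le_mul_of_nonneg_left h1 hc
  refine le_trans ?_ h2
  rw [Finset.sum_add_distrib, ← Finset.mul_sum, Finset.sum_sub_distrib, Finset.sum_const,
    Finset.sum_const, nsmul_eq_mul, nsmul_eq_mul, mul_add]
  have h3 : c * ((Real.log (2 + t) + t / (2 + t)) * (∑ i ∈ A, u i - A.card * t)) =
      (Real.log (2 + t) + t / (2 + t)) * ((1 - A.card * c) * t) := by
    rw [ht]; ring
  rw [h3]
  have h4 : 0 ≤ t / (2 + t) * ((1 - A.card * c) * t) :=
    mul_nonneg (by positivity) (mul_nonneg (by linarith) ht0)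
  have h5 : ph t = t * Real.log (2 + t) := rfl
  nlinarith [h4, h5]

section main

variable {T : ℝ} [hT : Fact (0 < T)]

/-- the modular of `L log L` -/
noncomputable def md (f : AddCircle T → ℂ) : ℝ≥0∞ :=
  ∫⁻ x, ENNReal.ofReal (ph ‖f x‖) ∂haarAddCircle

theorem int_of_md {f : AddCircle T → ℂ} (mf : Measurable f) (h : md f ≠ ∞) :
    Integrable (fun x => ‖f x‖ * Real.log (2 + ‖f x‖)) haarAddCircle ∧
      Integrable f haarAddCircle := by
  have h2 : 0 < Real.log 2 := Real.log_pos one_lt_two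
  have hi : Integrable (fun x => ‖f x‖ * Real.log (2 + ‖f x‖)) haarAddCircle := by
    refine ⟨(mf.norm.mul ((measurable_const.add mf.norm).log)).aestronglyMeasurable, ?_⟩
    unfold HasFiniteIntegral
    refine lt_of_le_of_lt (lintegral_mono fun x => ?_) h.lt_top
    show ‖ph ‖f x‖‖ₑ ≤ _
    rw [Real.enorm_of_nonneg (ph_nonneg (norm_nonneg (f x)))]
  refine ⟨hi, (hi.div_const (Real.log 2)).mono mf.aestronglyMeasurable
    (Eventually.of_forall fun x => ?_)⟩
  have h3 : Real.log 2 ≤ Real.log (2 + ‖f x‖) :=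
    Real.log_le_log two_pos (by linarith [norm_nonneg (f x)])
  rw [Real.norm_of_nonneg (div_nonneg (mul_nonneg (norm_nonneg _) (h2.le.trans h3)) h2.le),
    le_div_iff₀ h2]
  exact mul_le_mul_of_nonneg_left h3 (norm_nonneg _)

/-! ## continuity in measure -/

theorem tsum_pc_le {f : AddCircle T → ℂ} (mf : Measurable f) :
    ∑' j : ℕ, ∫⁻ x, ENNReal.ofReal (2 ^ j * ‖pc f j x‖) ∂haarAddCircle ≤
      ENNReal.ofReal (1 / Real.log 2) * md f := by
  have h2 : 0 < Real.log 2 := Real.log_pos one_lt_two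
  rw [← lintegral_tsum fun j => ((pc_measurable mf j).norm.const_mul _).ennreal_ofReal.aemeasurable]
  unfold md
  rw [← lintegral_const_mul' _ _ ENNReal.ofReal_ne_top]
  refine lintegral_mono fun x => ?_
  rw [tsum_eq_single (lev ‖f x‖)]
  · rw [← ENNReal.ofReal_mul (by positivity)]
    refine ENNReal.ofReal_le_ofReal ?_
    have := lev_log (norm_nonneg (f x))
    have h3 : ‖pc f (lev ‖f x‖) x‖ = ‖f x‖ := by unfold pc; rw [if_pos rfl]
    rw [h3, one_div, inv_mul_eq_div, le_div_iff₀ h2]
    unfold ph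
    nlinarith [norm_nonneg (f x)]
  · intro j hj
    have : pc f j x = 0 := if_neg (Ne.symm hj)
    rw [this]; simp

theorem exp_bound {K : ℝ} (hK : 4 ≤ K) (j : ℕ) :
    K * 2 ^ j * Real.exp (-((K - 2) * 2 ^ j)) ≤ 8 / K * (1 / 2) ^ j := by
  have h0 : (0:ℝ) < 2 ^ j := by positivity
  have hK0 : 0 < K := by linarith
  set y := K * 2 ^ j / 2 with hy
  have hy0 : 0 < y := by positivity
  have h1 := Real.quadratic_le_exp_of_nonneg hy0.le
  have h2 : Real.exp (-((K - 2) * 2 ^ j)) ≤ Real.exp (-y) := by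
    refine Real.exp_le_exp.2 ?_
    rw [hy]; nlinarith
  have h3 : K * 2 ^ j * Real.exp (-((K - 2) * 2 ^ j)) ≤ 2 * y * Real.exp (-y) := by
    have : K * 2 ^ j = 2 * y := by rw [hy]; ring
    rw [this]
    exact mul_le_mul_of_nonneg_left h2 (by positivity)
  refine h3.trans ?_
  have h4 : 8 / K * (1 / 2) ^ j = 4 / y := by
    rw [hy, one_div, inv_pow]; field_simp; norm_num
  rw [h4, Real.exp_neg, ← div_eq_mul_inv, div_le_div_iff₀ (Real.exp_pos _) hy0]
  nlinarith

/-- continuity in measure of the maximal function on `L log L` -/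
theorem small (hA : PAm T) {ε : ℝ} (hε : 0 < ε) : ∃ δ : ℝ, 0 < δ ∧ ∀ f : AddCircle T → ℂ,
    Measurable f → md f ≤ ENNReal.ofReal δ → Sm f (ENNReal.ofReal ε) := by
  obtain ⟨C, hC, hA⟩ := maxlemma hA
  have h2 : 0 < Real.log 2 := Real.log_pos one_lt_two
  -- choice of `K`
  set G : ℕ → ℕ → ℝ := fun K j => C / (Real.log (K * 2 ^ j)) ^ 2 +
    C / ε * (K * 2 ^ j * Real.exp (-((K - 2) * 2 ^ j))) with hG
  have hb1 : ∀ K : ℕ, 4 ≤ K → ∀ j : ℕ, C / (Real.log (K * 2 ^ j)) ^ 2 ≤
      C / (Real.log 2) ^ 2 * (1 / ((j:ℝ) + 1) ^ 2) := by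
    intro K hK j
    have hK' : (4:ℝ) ≤ K := by exact_mod_cast hK
    have h4 : 0 < (j + 1 : ℝ) * Real.log 2 := by positivity
    have h5 : (j + 1 : ℝ) * Real.log 2 ≤ Real.log (K * 2 ^ j) := by
      have : (j + 1 : ℝ) * Real.log 2 = Real.log (2 * 2 ^ j) := by
        rw [← pow_succ', Real.log_pow]; push_cast; ring
      rw [this]
      exact Real.log_le_log (by positivity) (by gcongr; linarith)
    rw [div_mul_div_comm, mul_one, ← mul_pow]
    refine div_le_div_of_nonneg_left hC (by positivity) ?_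
    rw [mul_comm (Real.log 2)]
    exact pow_le_pow_left₀ h4.le h5 2
  have hsum1 : Summable fun j : ℕ => C / (Real.log 2) ^ 2 * (1 / ((j:ℝ) + 1) ^ 2) := by
    refine Summable.mul_left _ ?_
    have := (summable_nat_add_iff 1).2 (Real.summable_one_div_nat_pow.2 one_lt_two)
    refine this.congr fun j => ?_
    push_cast; rfl
  have hbound : Summable fun j : ℕ => C / (Real.log 2) ^ 2 * (1 / ((j:ℝ) + 1) ^ 2) +
      C / ε * (2 * (1 / 2) ^ j) := hsum1.add ((summable_geometric_two.mul_left 2).mul_left _)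
  have hG0 : ∀ K : ℕ, 4 ≤ K → ∀ j, 0 ≤ G K j := by
    intro K hK j
    simp only [hG]; positivity
  have hGb : ∀ K : ℕ, 4 ≤ K → ∀ j, G K j ≤ C / (Real.log 2) ^ 2 * (1 / ((j:ℝ) + 1) ^ 2) +
      C / ε * (2 * (1 / 2) ^ j) := by
    intro K hK j
    have hK' : (4:ℝ) ≤ K := by exact_mod_cast hK
    simp only [hG]
    refine add_le_add (hb1 K hK j) (mul_le_mul_of_nonneg_left ((exp_bound hK' j).trans ?_)
      (by positivity))
    refine mul_le_mul_of_nonneg_right ?_ (by positivity)
    rw [div_le_iff₀ (by linarith)]; linarith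
  have htend : Tendsto (fun K : ℕ => ∑' j, G K j) atTop (𝓝 0) := by
    have := tendsto_tsum_of_dominated_convergence (𝓕 := atTop) (f := G) (g := fun _ => (0:ℝ))
      hbound (fun j => ?_) ?_
    · simpa using this
    · -- each term tends to zero
      have t0 : Tendsto (fun K : ℕ => (K : ℝ) * 2 ^ j) atTop atTop :=
        tendsto_natCast_atTop_atTop.atTop_mul_const (by positivity)
      have t1 : Tendsto (fun K : ℕ => C / (Real.log (K * 2 ^ j)) ^ 2) atTop (𝓝 0) :=
        tendsto_const_nhds.div_atTop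
          ((tendsto_pow_atTop two_ne_zero).comp (Real.tendsto_log_atTop.comp t0))
      have t2 : Tendsto (fun K : ℕ => C / ε * (8 / (K:ℝ) * (1 / 2) ^ j)) atTop (𝓝 0) := by
        have := ((tendsto_const_nhds (x := (8:ℝ))).div_atTop
          (tendsto_natCast_atTop_atTop (R := ℝ))).mul_const ((1 / 2 : ℝ) ^ j)
        simpa using this.const_mul (C / ε)
      have t3 := t1.add t2
      rw [add_zero] at t3
      refine squeeze_zero' ?_ ?_ t3
      · filter_upwards [eventually_ge_atTop 4] with K hK using hG0 K hK j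
      · filter_upwards [eventually_ge_atTop 4] with K hK
        have hK' : (4:ℝ) ≤ K := by exact_mod_cast hK
        exact add_le_add le_rfl (mul_le_mul_of_nonneg_left (exp_bound hK' j) (by positivity))
    · filter_upwards [eventually_ge_atTop 4] with K hK j
      rw [Real.norm_of_nonneg (hG0 K hK j)]
      exact hGb K hK j
  obtain ⟨K, hK1, hK2⟩ := ((htend.eventually_lt_const (half_pos hε)).and
    (eventually_ge_atTop 4)).exists
  have hK' : (4:ℝ) ≤ K := by exact_mod_cast hK2
  have hK0 : (0:ℝ) < K := by linarith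
  have hGs : Summable (G K) := Summable.of_nonneg_of_le (hG0 K hK2) (hGb K hK2) hbound
  -- choice of `δ`
  refine ⟨ε * (ε / 2) * Real.log 2 / ((C + 1) * K), by positivity, fun f mf hf n => ?_⟩
  obtain ⟨hL, if'⟩ := int_of_md mf (ne_top_of_le_ne_top ENNReal.ofReal_ne_top hf)
  set a : ℕ → ℝ := fun j => ∫ x, ‖pc f j x‖ ∂haarAddCircle + Real.exp (-((K - 2) * 2 ^ j)) with ha
  have hb0 : ∀ j, 0 ≤ ∫ x, ‖pc f j x‖ ∂haarAddCircle := fun j => integral_nonneg fun x =>
    norm_nonneg _
  have ha0 : ∀ j, 0 < a j := fun j => add_pos_of_nonneg_of_pos (hb0 j) (Real.exp_pos _)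
  have hE : ∀ j : ℕ, ∃ E : Set (AddCircle T), MeasurableSet E ∧
        haarAddCircle E ≤ ENNReal.ofReal (C / (Real.log (K * 2 ^ j)) ^ 2) ∧
        ∫⁻ x in Eᶜ, MM n (pc f j) x ∂haarAddCircle ≤ ENNReal.ofReal (C * a j * (K * 2 ^ j)) := by
    intro j
    have hj1 : (1:ℝ) ≤ 2 ^ j := one_le_pow₀ one_le_two
    refine hA (K * 2 ^ j) (a j) (2 ^ 2 ^ (j + 1)) ?_ (ha0 j) ?_ (pc f j) (pc_measurable mf j)
      (pc_bdd j) ?_ n
    · nlinarith
    · have h3 : Real.exp (-((K - 2) * 2 ^ j)) ≤ a j := by
        simp only [ha]; linarith [hb0 j]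
      calc (2:ℝ) ^ 2 ^ (j + 1) ≤ (Real.exp 1) ^ 2 ^ (j + 1) := by
            gcongr; linarith [Real.add_one_le_exp 1]
        _ = Real.exp (-((K - 2) * 2 ^ j)) * Real.exp (K * 2 ^ j) := by
            rw [← Real.exp_nat_mul, ← Real.exp_add]; congr 1; push_cast; ring
        _ ≤ a j * Real.exp (K * 2 ^ j) := by gcongr
    · simp only [ha]; linarith [Real.exp_pos (-((K - 2) * 2 ^ j) : ℝ)]
  choose E mE h1 h2' using hE
  have hε0 : ENNReal.ofReal ε ≠ 0 := by simpa using hε
  have htl : tl f 0 = f := by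
    ext x; simp [tl]
  have hpc : ∀ (j : ℕ) x, pc f (j + 0) x = pc f j x := fun j x => rfl
  refine (cheb (E := ⋃ j, E j) mf hε0 ENNReal.ofReal_ne_top).trans ?_
  calc haarAddCircle (⋃ j, E j) +
        (∫⁻ x in (⋃ j, E j)ᶜ, MM n f x ∂haarAddCircle) / ENNReal.ofReal ε
      ≤ (∑' j : ℕ, ENNReal.ofReal (C / (Real.log (K * 2 ^ j)) ^ 2)) +
        (∑' j : ℕ, ENNReal.ofReal (C * a j * (K * 2 ^ j))) / ENNReal.ofReal ε := by
        gcongr ?_ + ?_ / _
        · exact (measure_iUnion_le _).trans (ENNReal.tsum_le_tsum fun j => h1 j)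
        · calc ∫⁻ x in (⋃ j, E j)ᶜ, MM n f x ∂haarAddCircle
              ≤ ∫⁻ x in (⋃ j, E j)ᶜ, ∑' j, MM n (pc f j) x ∂haarAddCircle :=
                lintegral_mono fun x => by
                  have := MM_tl_le mf if' 0 n x
                  rwa [htl] at this
            _ = ∑' j, ∫⁻ x in (⋃ j, E j)ᶜ, MM n (pc f j) x ∂haarAddCircle :=
                lintegral_tsum fun j => (MM_measurable n (pc_measurable mf _)).aemeasurable
            _ ≤ ∑' j : ℕ, ENNReal.ofReal (C * a j * (K * 2 ^ j)) :=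
                ENNReal.tsum_le_tsum fun j => (lintegral_mono_set (compl_subset_compl.2
                  (subset_iUnion (fun j => E j) j))).trans (h2' j)
    _ = ∑' j : ℕ, (ENNReal.ofReal (G K j) +
          ENNReal.ofReal (C * K / ε * (2 ^ j * ∫ x, ‖pc f j x‖ ∂haarAddCircle))) := by
        rw [div_eq_mul_inv, ← ENNReal.tsum_mul_right, ← ENNReal.tsum_add]
        refine tsum_congr fun j => ?_
        have h5 := ha0 j
        have h6 := hb0 j
        have h7 := hG0 K hK2 j
        rw [← div_eq_mul_inv, ← ENNReal.ofReal_div_of_pos hε,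
          ← ENNReal.ofReal_add (by positivity) (by positivity),
          ← ENNReal.ofReal_add h7 (by positivity)]
        congr 1
        simp only [ha, hG]; field_simp; ring
    _ = ENNReal.ofReal (∑' j, G K j) + ENNReal.ofReal (C * K / ε) *
          ∑' j : ℕ, ∫⁻ x, ENNReal.ofReal (2 ^ j * ‖pc f j x‖) ∂haarAddCircle := by
        rw [ENNReal.tsum_add, ← ENNReal.ofReal_tsum_of_nonneg (hG0 K hK2) hGs,
          ← ENNReal.tsum_mul_left]
        congr 1
        refine tsum_congr fun j => ?_
        rw [ENNReal.ofReal_mul (by positivity), ← integral_const_mul,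
          ofReal_integral_eq_lintegral_ofReal ((pc_int mf if' j).norm.const_mul _)
            (Eventually.of_forall fun x => by positivity)]
    _ ≤ ENNReal.ofReal (ε / 2) + ENNReal.ofReal (C * K / ε) *
          (ENNReal.ofReal (1 / Real.log 2) *
            ENNReal.ofReal (ε * (ε / 2) * Real.log 2 / ((C + 1) * K))) := by
        gcongr ?_ + _ * ?_
        · exact ENNReal.ofReal_le_ofReal hK1.le
        · exact (tsum_pc_le mf).trans (mul_le_mul_right hf _)
    _ ≤ ENNReal.ofReal (ε / 2) + ENNReal.ofReal (ε / 2) := by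
        gcongr
        rw [← ENNReal.ofReal_mul (by positivity), ← ENNReal.ofReal_mul (by positivity)]
        refine ENNReal.ofReal_le_ofReal ?_
        have : C * K / ε * (1 / Real.log 2 * (ε * (ε / 2) * Real.log 2 / ((C + 1) * K))) =
            C / (C + 1) * (ε / 2) := by field_simp
        rw [this]
        have h8 : C / (C + 1) ≤ 1 := (div_le_one (by linarith)).2 (by linarith)
        nlinarith
    _ = ENNReal.ofReal ε := by
        rw [← ENNReal.ofReal_add (by positivity) (by positivity), add_halves]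

/-! ## translations -/

theorem fourierCoeff_translate (g : AddCircle T → ℂ) (t : AddCircle T) (k : ℤ) :
    fourierCoeff (fun y => g (y - t)) k = fourier (-k) t * fourierCoeff g k := by
  unfold fourierCoeff
  have h1 := integral_sub_right_eq_self (μ := haarAddCircle)
    (fun y => (fourier (-k) (y + t) : ℂ) • g y) t
  have h2 : (fun y => (fourier (-k) (y - t + t) : ℂ) • g (y - t)) =
      fun y => (fourier (-k) y : ℂ) • g (y - t) := by
    ext y; rw [sub_add_cancel]
  rw [h2] at h1
  rw [h1, ← integral_const_mul]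
  refine integral_congr_ae (Eventually.of_forall fun y => ?_)
  have h3 : (fourier (-k) (y + t) : ℂ) = fourier (-k) y * fourier (-k) t := by
    simp only [fourier_apply]
    rw [smul_add, toCircle_add, Circle.coe_mul]
  simp only [smul_eq_mul]
  rw [h3]; ring

theorem S_translate (N : ℕ) (g : AddCircle T → ℂ) (t x : AddCircle T) :
    S N (fun y => g (y - t)) x = S N g (x - t) := by
  unfold S
  refine Finset.sum_congr rfl fun k _ => ?_
  rw [fourierCoeff_translate]
  have h3 : (fourier k (x - t) : ℂ) = fourier k x * fourier (-k) t := by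
    simp only [fourier_apply]
    rw [sub_eq_add_neg, smul_add, toCircle_add, Circle.coe_mul, smul_neg, neg_smul]
  rw [h3]; ring

theorem md_translate (g : AddCircle T → ℂ) (t : AddCircle T) :
    md (fun y => g (y - t)) = md g := by
  unfold md
  exact lintegral_sub_right_eq_self (μ := haarAddCircle)
    (fun y => ENNReal.ofReal (ph ‖g y‖)) t

/-! ## covering by translates -/

theorem exists_translate {U F : Set (AddCircle T)} (mU : MeasurableSet U) (mF : MeasurableSet F) :
    ∃ t : AddCircle T, haarAddCircle (U ∩ {x | x - t ∈ F}) ≤ haarAddCircle U * haarAddCircle F := by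
  have hm : Measurable (fun p : AddCircle T × AddCircle T =>
      U.indicator (1 : AddCircle T → ℝ≥0∞) p.2 * F.indicator (1 : AddCircle T → ℝ≥0∞) (p.2 - p.1)) :=
    ((measurable_one.indicator mU).comp measurable_snd).mul
      ((measurable_one.indicator mF).comp (measurable_snd.sub measurable_fst))
  have h1 : ∀ t : AddCircle T, haarAddCircle (U ∩ {x | x - t ∈ F}) =
      ∫⁻ x, U.indicator 1 x * F.indicator 1 (x - t) ∂haarAddCircle := by
    intro t
    have hmt : MeasurableSet (U ∩ {x | x - t ∈ F}) :=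
      mU.inter ((measurable_id.sub_const t) mF)
    rw [← lintegral_indicator_one hmt]
    refine lintegral_congr fun x => ?_
    by_cases hx : x ∈ U
    · by_cases hy : x - t ∈ F
      · rw [indicator_of_mem (show x ∈ U ∩ {x | x - t ∈ F} from ⟨hx, hy⟩), indicator_of_mem hx,
          indicator_of_mem hy]; simp
      · rw [indicator_of_notMem (fun h => hy h.2), indicator_of_notMem hy, mul_zero]
    · rw [indicator_of_notMem (fun h => hx h.1), indicator_of_notMem hx, zero_mul]
  have h2 : ∫⁻ t, haarAddCircle (U ∩ {x | x - t ∈ F}) ∂haarAddCircle =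
      haarAddCircle U * haarAddCircle F := by
    simp_rw [h1]
    rw [lintegral_lintegral_swap hm.aemeasurable]
    have h3 : ∀ x : AddCircle T, ∫⁻ t, U.indicator 1 x * F.indicator 1 (x - t) ∂haarAddCircle =
        U.indicator (1 : AddCircle T → ℝ≥0∞) x * haarAddCircle F := by
      intro x
      have hh : Measurable fun t : AddCircle T =>
          F.indicator (1 : AddCircle T → ℝ≥0∞) (x - t) :=
        (measurable_one.indicator mF).comp (measurable_const.sub measurable_id)
      rw [lintegral_const_mul _ hh]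
      congr 1
      rw [lintegral_sub_left_eq_self (μ := haarAddCircle) (F.indicator (1 : AddCircle T → ℝ≥0∞)) x,
        lintegral_indicator_one mF]
    simp_rw [h3]
    rw [lintegral_mul_const _ (measurable_one.indicator mU), lintegral_indicator_one mU]
  have hmt : Measurable fun t : AddCircle T => haarAddCircle (U ∩ {x | x - t ∈ F}) := by
    simp_rw [h1]
    exact hm.lintegral_prod_right'
  obtain ⟨t, ht⟩ := exists_le_lintegral (μ := haarAddCircle) hmt.aemeasurable
  exact ⟨t, ht.trans h2.le⟩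

theorem exists_cover {F : Set (AddCircle T)} (mF : MeasurableSet F) (m : ℕ) :
    ∃ t : ℕ → AddCircle T, haarAddCircle {x | ∀ i < m, x - t i ∈ F} ≤ haarAddCircle F ^ m := by
  induction m with
  | zero => exact ⟨fun _ => 0, by simp⟩
  | succ m ih =>
    obtain ⟨t, ht⟩ := ih
    have mU : MeasurableSet {x | ∀ i < m, x - t i ∈ F} := by
      have : {x | ∀ i < m, x - t i ∈ F} = ⋂ i ∈ Finset.range m, {x | x - t i ∈ F} := by
        ext x; simp
      rw [this]
      exact Finset.measurableSet_biInter _ fun i _ => (measurable_id.sub_const (t i)) mF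
    obtain ⟨u, hu⟩ := exists_translate mU mF
    refine ⟨Function.update t m u, ?_⟩
    have h1 : {x | ∀ i < m + 1, x - Function.update t m u i ∈ F} =
        {x | ∀ i < m, x - t i ∈ F} ∩ {x | x - u ∈ F} := by
      ext x
      simp only [mem_ofPred_eq, mem_inter_iff]
      constructor
      · intro h
        refine ⟨fun i hi => ?_, ?_⟩
        · have := h i (by omega)
          rwa [Function.update_of_ne (by omega)] at this
        · have := h m (by omega)
          rwa [Function.update_self] at this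
      · rintro ⟨h, h'⟩ i hi
        rcases Nat.lt_succ_iff_lt_or_eq.1 hi with hi | rfl
        · rw [Function.update_of_ne (by omega)]; exact h i hi
        · rw [Function.update_self]; exact h'
    rw [h1, pow_succ]
    exact hu.trans (mul_le_mul_left ht _)

/-! ## random signs -/

/-- the sign of a Boolean -/
def sgn (b : Bool) : ℂ := if b then 1 else -1

/-- signed sum of translates -/
noncomputable def hs (g : AddCircle T → ℂ) (t : ℕ → AddCircle T) (m : ℕ) (c : ℝ)
    (w : Fin m → Bool) (y : AddCircle T) : ℂ :=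
  (c : ℂ) * ∑ i : Fin m, sgn (w i) * g (y - t i)

theorem S_hs (N : ℕ) {g : AddCircle T → ℂ} (ig : Integrable g haarAddCircle)
    (t : ℕ → AddCircle T) (m : ℕ) (c : ℝ) (w : Fin m → Bool) (x : AddCircle T) :
    S N (hs g t m c w) x = (c : ℂ) * ∑ i : Fin m, sgn (w i) * S N g (x - t i) := by
  have h1 : hs g t m c w = fun y => (c : ℂ) * (∑ i : Fin m, fun y => sgn (w i) * g (y - t i)) y := by
    ext y; unfold hs; rw [Finset.sum_apply]
  rw [h1, S_mul]
  congr 1
  have ii : ∀ i ∈ (Finset.univ : Finset (Fin m)),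
      Integrable (fun y => sgn (w i) * g (y - t i)) haarAddCircle := fun i _ =>
    (ig.comp_sub_right (t i)).const_mul _
  unfold S
  rw [fourierCoeff.sum _ _ ii]
  simp only [Finset.sum_apply, Finset.sum_mul]
  rw [Finset.sum_comm]
  refine Finset.sum_congr rfl fun i _ => ?_
  have h2 : ∑ k ∈ Finset.Icc (-(N : ℤ)) N, fourierCoeff (fun y => sgn (w i) * g (y - t i)) k *
      fourier k x = S N (fun y => sgn (w i) * (fun y => g (y - t i)) y) x := rfl
  rw [h2, S_mul, S_translate]; rfl

theorem flip_bound (n : ℕ) {g : AddCircle T → ℂ} (ig : Integrable g haarAddCircle)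
    (t : ℕ → AddCircle T) (m : ℕ) {c : ℝ} (hc : 0 < c) (x : AddCircle T) {i0 : Fin m}
    (hx : ENNReal.ofReal (1 / c) < SS n g (x - t i0)) (w : Fin m → Bool) :
    1 < SS n (hs g t m c w) x ∨ 1 < SS n (hs g t m c (Function.update w i0 (!w i0))) x := by
  unfold SS at hx
  obtain ⟨N, hN⟩ := lt_iSup_iff.1 hx
  rw [← ofReal_norm, ENNReal.ofReal_lt_ofReal_iff_of_nonneg (by positivity)] at hN
  have h1 : S N (hs g t m c w) x - S N (hs g t m c (Function.update w i0 (!w i0))) x =
      (c : ℂ) * ((sgn (w i0) - sgn (!w i0)) * S N g (x - t i0)) := by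
    rw [S_hs _ ig, S_hs _ ig, ← mul_sub, ← Finset.sum_sub_distrib]
    congr 1
    rw [Finset.sum_eq_single i0]
    · rw [Function.update_self]; ring
    · intro i _ hi
      rw [Function.update_of_ne hi]; ring
    · intro h; exact absurd (Finset.mem_univ _) h
  have h2 : ‖sgn (w i0) - sgn (!w i0)‖ = 2 := by
    unfold sgn
    cases w i0 <;> norm_num
  have h3 : 2 < ‖S N (hs g t m c w) x - S N (hs g t m c (Function.update w i0 (!w i0))) x‖ := by
    rw [h1, norm_mul, norm_mul, h2, Complex.norm_real, Real.norm_of_nonneg hc.le]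
    rw [div_lt_iff₀ hc] at hN
    nlinarith
  have h4 : ∀ v : Fin m → Bool, 1 < ‖S N (hs g t m c v) x‖ → 1 < SS n (hs g t m c v) x := by
    intro v hv
    refine lt_of_lt_of_le ?_ (le_iSup (fun N : Fin (n + 1) => ‖S N (hs g t m c v) x‖ₑ) N)
    show 1 < ‖S N (hs g t m c v) x‖ₑ
    rw [← ofReal_norm, ← ENNReal.ofReal_one]
    exact (ENNReal.ofReal_lt_ofReal_iff_of_nonneg zero_le_one).2 hv
  by_contra hcon
  push Not at hcon
  have h5 : ‖S N (hs g t m c w) x‖ ≤ 1 := by
    by_contra h; exact absurd (h4 _ (not_le.1 h)) (not_lt.2 hcon.1)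
  have h6 : ‖S N (hs g t m c (Function.update w i0 (!w i0))) x‖ ≤ 1 := by
    by_contra h; exact absurd (h4 _ (not_le.1 h)) (not_lt.2 hcon.2)
  have h7 := norm_sub_le (S N (hs g t m c w) x)
    (S N (hs g t m c (Function.update w i0 (!w i0))) x)
  linarith

omit hT in
theorem hs_measurable {g : AddCircle T → ℂ} (mg : Measurable g) (t : ℕ → AddCircle T) (m : ℕ)
    (c : ℝ) (w : Fin m → Bool) : Measurable (hs g t m c w) := by
  unfold hs
  refine measurable_const.mul (Finset.measurable_sum _ fun i _ => measurable_const.mul ?_)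
  exact mg.comp (measurable_id.sub_const _)

theorem md_hs {g : AddCircle T → ℂ} (mg : Measurable g) (t : ℕ → AddCircle T) (m : ℕ)
    {c : ℝ} (hc : 0 ≤ c) (hc1 : m * c ≤ 1) (w : Fin m → Bool) :
    md (hs g t m c w) ≤ ENNReal.ofReal (m * c) * md g := by
  have h1 : ∀ y, ENNReal.ofReal (ph ‖hs g t m c w y‖) ≤
      ∑ i : Fin m, ENNReal.ofReal c * ENNReal.ofReal (ph ‖g (y - t i)‖) := by
    intro y
    have h2 : ‖hs g t m c w y‖ ≤ c * ∑ i : Fin m, ‖g (y - t i)‖ := by
      unfold hs
      rw [norm_mul, Complex.norm_real, Real.norm_of_nonneg hc]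
      refine mul_le_mul_of_nonneg_left ((norm_sum_le _ _).trans (Finset.sum_le_sum fun i _ => ?_)) hc
      rw [norm_mul]
      have : ‖sgn (w i)‖ = 1 := by unfold sgn; split_ifs <;> simp
      rw [this, one_mul]
    have h3 := (ph_mono (norm_nonneg _) h2).trans (ph_sum Finset.univ (fun i : Fin m =>
      ‖g (y - t i)‖) (fun i _ => norm_nonneg _) hc (by simpa using hc1))
    refine (ENNReal.ofReal_le_ofReal h3).trans (le_of_eq ?_)
    rw [Finset.mul_sum, ENNReal.ofReal_sum_of_nonneg fun i _ =>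
      mul_nonneg hc (ph_nonneg (norm_nonneg _))]
    exact Finset.sum_congr rfl fun i _ => ENNReal.ofReal_mul hc
  unfold md
  refine (lintegral_mono h1).trans ?_
  have h4 : ∀ i : Fin m, Measurable fun y : AddCircle T =>
      ENNReal.ofReal c * ENNReal.ofReal (ph ‖g (y - t i)‖) := by
    intro i
    have h5 : Measurable fun y : AddCircle T => ‖g (y - t i)‖ :=
      (mg.comp (measurable_id.sub_const (t i))).norm
    exact measurable_const.mul (h5.mul ((measurable_const.add h5).log)).ennreal_ofReal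
  rw [lintegral_finsetSum _ fun i _ => h4 i]
  have h6 : ∀ i : Fin m, ∫⁻ y, ENNReal.ofReal c * ENNReal.ofReal (ph ‖g (y - t i)‖) ∂haarAddCircle
      = ENNReal.ofReal c * md g := by
    intro i
    rw [lintegral_const_mul' _ _ ENNReal.ofReal_ne_top]
    congr 1
    exact md_translate g (t i)
  simp_rw [h6]
  rw [Finset.sum_const, Finset.card_univ, Fintype.card_fin, nsmul_eq_mul, ← mul_assoc]
  refine le_of_eq ?_
  congr 1
  rw [ENNReal.ofReal_mul (by positivity), ENNReal.ofReal_natCast]

/-! ## the weak type estimate -/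

theorem weak_n (hA : PAm T) : ∃ C : ℝ, 0 < C ∧ ∀ g : AddCircle T → ℂ, Measurable g → md g ≤ 1 →
    ∀ lam : ℝ, 0 < lam → ∀ n : ℕ,
      haarAddCircle {x | ENNReal.ofReal lam < SS n g x} ≤ ENNReal.ofReal (C / lam) := by
  obtain ⟨δ', hδ', hs1⟩ := small hA (ε := 1 / 8) (by norm_num)
  set δ := min δ' 1 with hδ
  have hδ0 : 0 < δ := lt_min hδ' one_pos
  refine ⟨2 / δ, by positivity, fun g mg hg lam hlam n => ?_⟩
  have ig : Integrable g haarAddCircle := (int_of_md mg (ne_top_of_le_ne_top ENNReal.one_ne_top hg)).2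
  set F : Set (AddCircle T) := {x | ENNReal.ofReal lam < SS n g x} with hF
  have mF : MeasurableSet F := measurableSet_lt measurable_const (SS_measurable n g)
  by_contra hcon
  rw [not_le] at hcon
  set η : ℝ := (haarAddCircle F).toReal with hη
  have hFη : haarAddCircle F = ENNReal.ofReal η := (ENNReal.ofReal_toReal (measure_ne_top _ _)).symm
  have hη1 : η ≤ 1 := by
    rw [hη]; exact ENNReal.toReal_le_of_le_ofReal zero_le_one (by simpa using prob_le_one)
  have hη2 : 2 / δ / lam < η := by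
    rw [hFη] at hcon
    exact (ENNReal.ofReal_lt_ofReal_iff_of_nonneg (by positivity)).1 hcon
  have hη0 : 0 < η := lt_of_le_of_lt (by positivity) hη2
  set m : ℕ := ⌈1 / η⌉₊ with hm
  have hm1 : 1 / η ≤ m := Nat.le_ceil _
  have hm2 : (m : ℝ) < 1 / η + 1 := Nat.ceil_lt_add_one (by positivity)
  have hm3 : (m : ℝ) < 2 / η := by
    have : (1:ℝ) ≤ 1 / η := (one_le_div hη0).2 hη1
    have h2 : 2 / η = 1 / η + 1 / η := by ring
    linarith
  set c : ℝ := 1 / lam with hc
  have hc0 : 0 < c := by positivity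
  have hmc : m * c ≤ δ := by
    have h1 : (m : ℝ) * c ≤ 2 / η * c := mul_le_mul_of_nonneg_right hm3.le hc0.le
    have h2 : 2 / η * c ≤ δ := by
      rw [hc, div_mul_div_comm, mul_one, div_le_iff₀ (by positivity)]
      rw [div_div, div_lt_iff₀ (by positivity)] at hη2
      nlinarith
    exact h1.trans h2
  obtain ⟨t, ht⟩ := exists_cover mF.compl m
  set V : Set (AddCircle T) := {x | ∀ i < m, x - t i ∈ Fᶜ} with hV
  have hV1 : haarAddCircle V ≤ ENNReal.ofReal (1 / 2) := by
    refine ht.trans ?_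
    have h1 : haarAddCircle Fᶜ = ENNReal.ofReal (1 - η) := by
      rw [prob_compl_eq_one_sub mF, hFη, ENNReal.ofReal_sub _ hη0.le, ENNReal.ofReal_one]
    rw [h1, ← ENNReal.ofReal_pow (by linarith)]
    refine ENNReal.ofReal_le_ofReal ?_
    have h2 : 1 - η ≤ Real.exp (-η) := by linarith [Real.add_one_le_exp (-η)]
    calc (1 - η) ^ m ≤ Real.exp (-η) ^ m := pow_le_pow_left₀ (by linarith) h2 m
      _ = Real.exp (-(m * η)) := by rw [← Real.exp_nat_mul]; congr 1; ring
      _ ≤ Real.exp (-1) := by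
          refine Real.exp_le_exp.2 ?_
          have : 1 ≤ m * η := by
            rw [div_le_iff₀ hη0] at hm1; exact hm1
          linarith
      _ ≤ 1 / 2 := by
          rw [Real.exp_neg, one_div]
          exact inv_anti₀ two_pos (by linarith [Real.add_one_le_exp 1])
  have mV : MeasurableSet V := by
    have : V = ⋂ i ∈ Finset.range m, {x | x - t i ∈ Fᶜ} := by
      ext x; simp [hV]
    rw [this]
    exact Finset.measurableSet_biInter _ fun i _ => (measurable_id.sub_const (t i)) mF.compl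
  have hV2 : ENNReal.ofReal (1 / 2) ≤ haarAddCircle Vᶜ := by
    rw [prob_compl_eq_one_sub mV]
    have h3 : ENNReal.ofReal (1 / 2) = 1 - ENNReal.ofReal (1 / 2) := by
      rw [← ENNReal.ofReal_one, ← ENNReal.ofReal_sub _ (by norm_num)]; norm_num
    rw [h3]
    exact tsub_le_tsub_left hV1 _
  set A : (Fin m → Bool) → Set (AddCircle T) := fun w => {x | 1 < SS n (hs g t m c w) x} with hA'
  have mA : ∀ w, MeasurableSet (A w) := fun w =>
    measurableSet_lt measurable_const (SS_measurable n _)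
  have hAw : ∀ w, haarAddCircle (A w) ≤ ENNReal.ofReal (1 / 8) := by
    intro w
    have h1 : md (hs g t m c w) ≤ ENNReal.ofReal δ' := by
      refine (md_hs mg t m hc0.le (hmc.trans (min_le_right _ _)) w).trans ?_
      calc ENNReal.ofReal (m * c) * md g ≤ ENNReal.ofReal δ' * 1 :=
            mul_le_mul' (ENNReal.ofReal_le_ofReal (hmc.trans (min_le_left _ _))) hg
        _ = _ := mul_one _
    refine (measure_mono fun x hx => ?_).trans (hs1 _ (hs_measurable mg t m c w) h1 n)
    have h2 : (1 : ℝ≥0∞) < SS n (hs g t m c w) x := hx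
    have h3 : ENNReal.ofReal (1 / 8) < 1 := by
      rw [← ENNReal.ofReal_one]
      exact (ENNReal.ofReal_lt_ofReal_iff one_pos).2 (by norm_num)
    show ENNReal.ofReal (1 / 8) < MM n (hs g t m c w) x
    unfold MM
    exact h3.trans (h2.trans_le le_self_add)
  have pt : ∀ x ∈ Vᶜ, ((2:ℝ≥0∞) ^ m) ≤ 2 * ∑ w, (A w).indicator 1 x := by
    intro x hx
    have hx' : ∃ i < m, x - t i ∈ F := by
      by_contra h
      push Not at h
      exact hx fun i hi => h i hi
    obtain ⟨i, hi, hxi⟩ := hx'
    set i0 : Fin m := ⟨i, hi⟩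
    have hinv : Function.Involutive fun w : Fin m → Bool => Function.update w i0 (!w i0) := by
      intro w
      ext j
      by_cases hj : j = i0
      · subst hj; simp
      · simp [Function.update_of_ne hj]
    have h1 : ∑ w, (A w).indicator (1 : AddCircle T → ℝ≥0∞) x =
        ∑ w, (A (Function.update w i0 (!w i0))).indicator 1 x :=
      (Equiv.sum_comp hinv.toPerm
        (fun w : Fin m → Bool => (A w).indicator (1 : AddCircle T → ℝ≥0∞) x)).symm
    have h2 : 2 * ∑ w, (A w).indicator (1 : AddCircle T → ℝ≥0∞) x =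
        ∑ w, ((A w).indicator 1 x + (A (Function.update w i0 (!w i0))).indicator 1 x) := by
      rw [Finset.sum_add_distrib, ← h1, two_mul]
    rw [h2]
    have h3 : ∀ w : Fin m → Bool, (1 : ℝ≥0∞) ≤ (A w).indicator 1 x +
        (A (Function.update w i0 (!w i0))).indicator 1 x := by
      intro w
      have h4 : ENNReal.ofReal (1 / c) < SS n g (x - t i0) := by
        rw [hc, one_div_one_div]; exact hxi
      rcases flip_bound n ig t m hc0 x h4 w with h | h
      · rw [indicator_of_mem (show x ∈ A w from h)]; exact le_self_add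
      · rw [indicator_of_mem (show x ∈ A (Function.update w i0 (!w i0)) from h)]
        exact le_add_self
    calc (2:ℝ≥0∞) ^ m = ∑ _w : Fin m → Bool, (1:ℝ≥0∞) := by
          rw [Finset.sum_const, Finset.card_univ, Fintype.card_fun, Fintype.card_bool,
            Fintype.card_fin, nsmul_eq_mul, mul_one]; norm_num
      _ ≤ _ := Finset.sum_le_sum fun w _ => h3 w
  have fin : ((2:ℝ≥0∞) ^ m) * haarAddCircle Vᶜ ≤ 2 * ((2:ℝ≥0∞) ^ m * ENNReal.ofReal (1 / 8)) := by
    calc ((2:ℝ≥0∞) ^ m) * haarAddCircle Vᶜ = ∫⁻ _x in Vᶜ, (2:ℝ≥0∞) ^ m ∂haarAddCircle := by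
          rw [setLIntegral_const]
      _ ≤ ∫⁻ x in Vᶜ, 2 * ∑ w, (A w).indicator 1 x ∂haarAddCircle :=
          setLIntegral_mono (measurable_const.mul (Finset.measurable_sum _ fun w _ =>
            measurable_one.indicator (mA w))) pt
      _ ≤ ∫⁻ x, 2 * ∑ w, (A w).indicator 1 x ∂haarAddCircle := setLIntegral_le_lintegral _ _
      _ = 2 * ∑ w, haarAddCircle (A w) := by
          rw [lintegral_const_mul _ (Finset.measurable_sum _ fun w _ =>
            measurable_one.indicator (mA w)), lintegral_finsetSum _ fun w _ =>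
            measurable_one.indicator (mA w)]
          congr 1
          exact Finset.sum_congr rfl fun w _ => lintegral_indicator_one (mA w)
      _ ≤ 2 * ∑ _w : Fin m → Bool, ENNReal.ofReal (1 / 8) := by
          gcongr with w _
          exact hAw w
      _ = _ := by
          rw [Finset.sum_const, Finset.card_univ, Fintype.card_fun, Fintype.card_bool,
            Fintype.card_fin, nsmul_eq_mul]; norm_num
  have h2m : (2:ℝ≥0∞) ^ m = ENNReal.ofReal (2 ^ m) := by
    rw [ENNReal.ofReal_pow (by norm_num)]; norm_num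
  have fin2 : ((2:ℝ≥0∞) ^ m) * ENNReal.ofReal (1 / 2) ≤
      2 * ((2:ℝ≥0∞) ^ m * ENNReal.ofReal (1 / 8)) :=
    (mul_le_mul_right hV2 _).trans fin
  have h2' : (2:ℝ≥0∞) = ENNReal.ofReal 2 := by norm_num
  rw [h2m, ← ENNReal.ofReal_mul (by positivity), ← ENNReal.ofReal_mul (by positivity), h2',
    ← ENNReal.ofReal_mul (by norm_num), ENNReal.ofReal_le_ofReal_iff (by positivity)] at fin2
  have : (0:ℝ) < 2 ^ m := by positivity
  linarith

/-- **The weak `L¹` estimate on `L log L`** (Luxemburg norm). -/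
theorem weak_type (hA : PAw T) : ∃ C : ℝ, 0 < C ∧ ∀ (f : AddCircle T → ℂ) (a : ℝ),
    AEStronglyMeasurable f haarAddCircle → 0 < a →
    Integrable (fun x => ‖f x‖ / a * Real.log (2 + ‖f x‖ / a)) haarAddCircle →
    ∫ x, ‖f x‖ / a * Real.log (2 + ‖f x‖ / a) ∂haarAddCircle ≤ 1 →
    ∀ lam : ℝ, 0 < lam →
      haarAddCircle {x : AddCircle T | ∃ N : ℕ, lam <
        ‖∑ k ∈ Finset.Icc (-(N : ℤ)) (N : ℤ), fourierCoeff f k * fourier k x‖} ≤
      ENNReal.ofReal (C * a / lam) := by
  obtain ⟨C, hC, hw⟩ := weak_n (PAm_of_PAw hA)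
  refine ⟨C, hC, fun f a hm ha hi h1 lam hlam => ?_⟩
  obtain ⟨f', mf', hff⟩ : ∃ g : AddCircle T → ℂ, Measurable g ∧ f =ᵐ[haarAddCircle] g :=
    ⟨hm.aemeasurable.mk f, hm.aemeasurable.measurable_mk, hm.aemeasurable.ae_eq_mk⟩
  have ha' : (a : ℂ) ≠ 0 := by exact_mod_cast ha.ne'
  set g : AddCircle T → ℂ := fun x => ((1 / a : ℝ) : ℂ) * f' x with hg
  have mg : Measurable g := measurable_const.mul mf'
  have gn : ∀ x, ‖g x‖ = ‖f' x‖ / a := by
    intro x
    rw [hg]; simp only []
    rw [norm_mul, Complex.norm_real, Real.norm_of_nonneg (by positivity)]; ring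
  have mdg : md g ≤ 1 := by
    unfold md
    have h2 : ∫⁻ x, ENNReal.ofReal (ph ‖g x‖) ∂haarAddCircle =
        ∫⁻ x, ENNReal.ofReal (‖f x‖ / a * Real.log (2 + ‖f x‖ / a)) ∂haarAddCircle := by
      refine lintegral_congr_ae ?_
      filter_upwards [hff] with x hx
      rw [gn, hx]; rfl
    rw [h2, ← ofReal_integral_eq_lintegral_ofReal hi (Eventually.of_forall fun x =>
      ph_nonneg (div_nonneg (norm_nonneg (f x)) ha.le)), ← ENNReal.ofReal_one]
    exact ENNReal.ofReal_le_ofReal h1
  have hSg : ∀ (N : ℕ) x, S N f x = (a : ℂ) * S N g x := by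
    intro N x
    rw [S_congr N hff, hg, S_mul]
    push_cast; field_simp
  have hset : {x : AddCircle T | ∃ N : ℕ, lam <
        ‖∑ k ∈ Finset.Icc (-(N : ℤ)) (N : ℤ), fourierCoeff f k * fourier k x‖} ⊆
      ⋃ n : ℕ, {x | ENNReal.ofReal (lam / a) < SS n g x} := by
    rintro x ⟨N, hN⟩
    refine mem_iUnion.2 ⟨N, ?_⟩
    refine lt_of_lt_of_le ?_ (le_iSup (fun M : Fin (N + 1) => ‖S M g x‖ₑ) ⟨N, Nat.lt_succ_self N⟩)
    show ENNReal.ofReal (lam / a) < ‖S N g x‖ₑ
    rw [← ofReal_norm]
    refine (ENNReal.ofReal_lt_ofReal_iff_of_nonneg (by positivity)).2 ?_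
    have h3 : lam < ‖S N f x‖ := hN
    rw [hSg, norm_mul, Complex.norm_real, Real.norm_of_nonneg ha.le] at h3
    rw [div_lt_iff₀ ha]; linarith
  refine (measure_mono hset).trans ?_
  have hmono : Monotone fun n : ℕ => {x | ENNReal.ofReal (lam / a) < SS n g x} := by
    intro m n hmn x hx
    refine lt_of_lt_of_le (show ENNReal.ofReal (lam / a) < SS m g x from hx) ?_
    exact iSup_le fun N => le_iSup (fun N : Fin (n + 1) => ‖S N g x‖ₑ) ⟨N, by omega⟩
  rw [hmono.measure_iUnion]
  refine iSup_le fun n => (hw g mg mdg (lam / a) (by positivity) n).trans (le_of_eq ?_)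
  congr 1
  rw [div_div_eq_mul_div]

end main

end Vale.Agent.P091.H253
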